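import Vale.Agent.Lib.P162.Rep

/-!
# Weighted transposition Laplacians and their conjugation by the heat flow

`BB π p q` is the orthogonal projection onto the vectors antisymmetric under the transposition of
`p` and `q`, and `Lw π w` is the weighted sum of these projections.  The main result of this file
is a locality estimate: if the total weight at every point is small, then conjugating `BB π p q` by
`heat Q a` with `|a| ≤ 1` keeps the operator norm below `3 / 2`, and the energy of a vector with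
respect to the conjugated projections is at most twice its energy for the original projections.
-/

namespace Vale.Agent.Lib.P162G

open Equiv Finset NormedSpace
open Vale.Agent.Lib.P162
open scoped RealInnerProductSpace

set_option linter.unusedSectionVars false
set_option linter.unusedDecidableInType false

variable {H : Type*} [NormedAddCommGroup H] [InnerProductSpace ℝ H]
variable {X : Type*} [Fintype X] [DecidableEq X]

/-- The projection onto the part antisymmetric under the transposition of `p` and `q`. -/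
noncomputable def BB (π : Perm X →* (H →L[ℝ] H)) (p q : X) : H →L[ℝ] H :=
  (1 / 2 : ℝ) • (1 - π (swap p q))

/-- The weighted Laplacian. -/
noncomputable def Lw (π : Perm X →* (H →L[ℝ] H)) (w : X → X → ℝ) : H →L[ℝ] H :=
  ∑ p, ∑ q, w p q • BB π p q

theorem BB_apply (π : Perm X →* (H →L[ℝ] H)) (p q : X) (u : H) :
    BB π p q u = (1 / 2 : ℝ) • (u - π (swap p q) u) := by
  simp [BB]

theorem BB_self (π : Perm X →* (H →L[ℝ] H)) (p : X) : BB π p p = 0 := by
  unfold BB
  rw [Equiv.swap_self]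
  have h1 : (Equiv.refl X : Perm X) = 1 := rfl
  rw [h1, map_one]
  simp

theorem BB_comm_symm (π : Perm X →* (H →L[ℝ] H)) (p q : X) : BB π q p = BB π p q := by
  unfold BB
  rw [Equiv.swap_comm]

theorem BB_symm {π : Perm X →* (H →L[ℝ] H)} (hπ : IsOrth π) (p q : X) (u v : H) :
    ⟪BB π p q u, v⟫ = ⟪u, BB π p q v⟫ := by
  rw [BB_apply, BB_apply, inner_smul_left, inner_smul_right, inner_sub_left, inner_sub_right,
    hπ.symm_swap]
  simp

theorem rep_swap_swap (π : Perm X →* (H →L[ℝ] H)) (p q : X) :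
    π (swap p q) * π (swap p q) = 1 := by
  rw [← map_mul, Equiv.swap_mul_self, map_one]

theorem BB_idem (π : Perm X →* (H →L[ℝ] H)) (p q : X) : BB π p q * BB π p q = BB π p q := by
  unfold BB
  rw [smul_mul_smul_comm, sub_mul, mul_sub, mul_sub, rep_swap_swap]
  simp only [mul_one, one_mul]
  ext u
  simp only [smul_apply, sub_apply,
    one_apply_eq_self]
  module

theorem BB_idem_apply (π : Perm X →* (H →L[ℝ] H)) (p q : X) (u : H) :
    BB π p q (BB π p q u) = BB π p q u := by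
  rw [← mul_apply_eq_comp, BB_idem]

theorem inner_BB {π : Perm X →* (H →L[ℝ] H)} (hπ : IsOrth π) (p q : X) (u : H) :
    ⟪u, BB π p q u⟫ = ‖BB π p q u‖ ^ 2 := by
  rw [← real_inner_self_eq_norm_sq, BB_symm hπ, BB_idem_apply]

theorem BB_norm_le {π : Perm X →* (H →L[ℝ] H)} (hπ : IsOrth π) (p q : X) (u : H) :
    ‖BB π p q u‖ ≤ ‖u‖ := by
  have h1 := inner_BB hπ p q u
  have h2 := real_inner_le_norm u (BB π p q u)
  rw [h1] at h2
  have h3 := norm_nonneg (BB π p q u)
  have h4 := norm_nonneg u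
  by_contra h
  push Not at h
  nlinarith

theorem BB_opNorm_le {π : Perm X →* (H →L[ℝ] H)} (hπ : IsOrth π) (p q : X) :
    ‖BB π p q‖ ≤ 1 :=
  ContinuousLinearMap.opNorm_le_bound _ zero_le_one fun u => by
    rw [one_mul]
    exact BB_norm_le hπ p q u

theorem BB_conj (π : Perm X →* (H →L[ℝ] H)) (g : Perm X) (p q : X) :
    π g * BB π p q = BB π (g p) (g q) * π g := by
  unfold BB
  rw [mul_smul_comm, smul_mul_assoc, mul_sub, sub_mul, mul_one, one_mul, rep_conj_swap]

/-- Transpositions with disjoint supports commute. -/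
theorem BB_comm_of_ne (π : Perm X →* (H →L[ℝ] H)) {p q p' q' : X} (h1 : p ≠ p') (h2 : p ≠ q')
    (h3 : q ≠ p') (h4 : q ≠ q') : Commute (BB π p q) (BB π p' q') := by
  have hd : Perm.Disjoint (swap p q) (swap p' q') := by
    intro z
    by_cases hz1 : z = p
    · subst hz1
      right
      exact Equiv.swap_apply_of_ne_of_ne h1 h2
    by_cases hz2 : z = q
    · subst hz2
      right
      exact Equiv.swap_apply_of_ne_of_ne h3 h4
    · left
      exact Equiv.swap_apply_of_ne_of_ne hz1 hz2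
  have hc : Commute (π (swap p q)) (π (swap p' q')) := hd.commute.map π
  unfold BB
  apply Commute.smul_left
  apply Commute.smul_right
  apply Commute.sub_left (Commute.one_left _)
  exact Commute.sub_right (Commute.one_right _) hc

theorem Lw_apply (π : Perm X →* (H →L[ℝ] H)) (w : X → X → ℝ) (u : H) :
    Lw π w u = ∑ p, ∑ q, w p q • BB π p q u := by
  simp [Lw]

theorem Lw_eq_sum (π : Perm X →* (H →L[ℝ] H)) (w : X → X → ℝ) :
    Lw π w = ∑ g : X × X, w g.1 g.2 • BB π g.1 g.2 := by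
  rw [Fintype.sum_prod_type]
  rfl

theorem Lw_symm {π : Perm X →* (H →L[ℝ] H)} (hπ : IsOrth π) (w : X → X → ℝ) (u v : H) :
    ⟪Lw π w u, v⟫ = ⟪u, Lw π w v⟫ := by
  rw [Lw_apply, Lw_apply, sum_inner, inner_sum]
  refine Finset.sum_congr rfl fun p _ => ?_
  rw [sum_inner, inner_sum]
  refine Finset.sum_congr rfl fun q _ => ?_
  rw [inner_smul_left, inner_smul_right, BB_symm hπ]
  simp

theorem inner_Lw {π : Perm X →* (H →L[ℝ] H)} (hπ : IsOrth π) (w : X → X → ℝ) (u : H) :
    ⟪u, Lw π w u⟫ = ∑ p, ∑ q, w p q * ‖BB π p q u‖ ^ 2 := by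
  rw [Lw_apply, inner_sum]
  refine Finset.sum_congr rfl fun p _ => ?_
  rw [inner_sum]
  refine Finset.sum_congr rfl fun q _ => ?_
  rw [inner_smul_right, inner_BB hπ]

theorem inner_Lw_nonneg {π : Perm X →* (H →L[ℝ] H)} (hπ : IsOrth π) {w : X → X → ℝ}
    (hw : ∀ p q, 0 ≤ w p q) (u : H) : 0 ≤ ⟪u, Lw π w u⟫ := by
  rw [inner_Lw hπ]
  exact Finset.sum_nonneg fun p _ => Finset.sum_nonneg fun q _ =>
    mul_nonneg (hw p q) (by positivity)

theorem Lw_add (π : Perm X →* (H →L[ℝ] H)) (w w' : X → X → ℝ) :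
    Lw π (fun p q => w p q + w' p q) = Lw π w + Lw π w' := by
  unfold Lw
  rw [← Finset.sum_add_distrib]
  refine Finset.sum_congr rfl fun p _ => ?_
  rw [← Finset.sum_add_distrib]
  refine Finset.sum_congr rfl fun q _ => ?_
  rw [add_smul]

theorem Lw_sub (π : Perm X →* (H →L[ℝ] H)) (w w' : X → X → ℝ) :
    Lw π (fun p q => w p q - w' p q) = Lw π w - Lw π w' := by
  unfold Lw
  rw [← Finset.sum_sub_distrib]
  refine Finset.sum_congr rfl fun p _ => ?_
  rw [← Finset.sum_sub_distrib]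
  refine Finset.sum_congr rfl fun q _ => ?_
  rw [sub_smul]

theorem Lw_smul (π : Perm X →* (H →L[ℝ] H)) (c : ℝ) (w : X → X → ℝ) :
    Lw π (fun p q => c * w p q) = c • Lw π w := by
  unfold Lw
  rw [Finset.smul_sum]
  refine Finset.sum_congr rfl fun p _ => ?_
  rw [Finset.smul_sum]
  refine Finset.sum_congr rfl fun q _ => ?_
  rw [mul_smul]

/-- Conjugating the Laplacian by a representation operator. -/
theorem Lw_conj (π : Perm X →* (H →L[ℝ] H)) (g : Perm X) (w : X → X → ℝ) :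
    π g * Lw π w = Lw π (fun p q => w (g⁻¹ p) (g⁻¹ q)) * π g := by
  unfold Lw
  rw [Finset.mul_sum, Finset.sum_mul]
  rw [← Equiv.sum_comp g (fun p => (∑ q, w (g⁻¹ p) (g⁻¹ q) • BB π p q) * π g)]
  refine Finset.sum_congr rfl fun p _ => ?_
  rw [Finset.mul_sum, Finset.sum_mul]
  rw [← Equiv.sum_comp g (fun q => (w (g⁻¹ (g p)) (g⁻¹ q) • BB π (g p) q) * π g)]
  refine Finset.sum_congr rfl fun q _ => ?_
  rw [mul_smul_comm, smul_mul_assoc, BB_conj]
  simp

/-- If the weights are invariant under `g`, the Laplacian commutes with `π g`. -/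
theorem Lw_comm_of_inv (π : Perm X →* (H →L[ℝ] H)) (g : Perm X) {w : X → X → ℝ}
    (hw : ∀ p q, w (g⁻¹ p) (g⁻¹ q) = w p q) : Commute (π g) (Lw π w) := by
  unfold Commute SemiconjBy
  rw [Lw_conj]
  congr 2
  funext p q
  exact hw p q

section conj

variable [CompleteSpace H]

/-- Conjugation by the heat flow. -/
noncomputable def Th (Q B : H →L[ℝ] H) (a : ℝ) : H →L[ℝ] H := heat Q (-a) * B * heat Q a

theorem heat_inv_left (Q : H →L[ℝ] H) (a : ℝ) : heat Q (-a) * heat Q a = 1 := by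
  rw [← heat_add]
  simp [heat_zero]

theorem heat_inv_right (Q : H →L[ℝ] H) (a : ℝ) : heat Q a * heat Q (-a) = 1 := by
  rw [← heat_add]
  simp [heat_zero]

theorem Th_zero (Q B : H →L[ℝ] H) : Th Q B 0 = B := by
  simp [Th, heat_zero]

theorem Th_mul (Q A B : H →L[ℝ] H) (a : ℝ) : Th Q (A * B) a = Th Q A a * Th Q B a := by
  unfold Th
  calc heat Q (-a) * (A * B) * heat Q a
      = heat Q (-a) * A * 1 * B * heat Q a := by noncomm_ring
    _ = heat Q (-a) * A * (heat Q a * heat Q (-a)) * B * heat Q a := by rw [heat_inv_right]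
    _ = _ := by noncomm_ring

theorem Th_sub (Q A B : H →L[ℝ] H) (a : ℝ) : Th Q (A - B) a = Th Q A a - Th Q B a := by
  unfold Th
  noncomm_ring

theorem Th_smul (Q A : H →L[ℝ] H) (c a : ℝ) : Th Q (c • A) a = c • Th Q A a := by
  unfold Th
  rw [mul_smul_comm, smul_mul_assoc]

theorem Th_sum {ι : Type*} (s : Finset ι) (Q : H →L[ℝ] H) (f : ι → H →L[ℝ] H) (a : ℝ) :
    Th Q (∑ i ∈ s, f i) a = ∑ i ∈ s, Th Q (f i) a := by
  unfold Th
  rw [Finset.mul_sum, Finset.sum_mul]

theorem Th_apply_heat (Q B : H →L[ℝ] H) (a : ℝ) (y : H) :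
    heat Q (-a) (B (heat Q a y)) = Th Q B a y := rfl

theorem hasDerivAt_heat_op (Q : H →L[ℝ] H) (a : ℝ) :
    HasDerivAt (fun r : ℝ => heat Q r) (Q * heat Q a) a :=
  hasDerivAt_exp_smul_const' (𝕂 := ℝ) Q a

theorem hasDerivAt_heat_neg_op (Q : H →L[ℝ] H) (a : ℝ) :
    HasDerivAt (fun r : ℝ => heat Q (-r)) (heat Q (-a) * (-Q)) a := by
  have h := hasDerivAt_exp_smul_const (𝕂 := ℝ) (-Q) a
  have e : (fun r : ℝ => exp (r • (-Q))) = fun r : ℝ => heat Q (-r) := by
    funext r
    unfold heat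
    rw [smul_neg, neg_smul]
  have e2 : exp (a • (-Q)) = heat Q (-a) := congrFun e a
  rw [e, e2] at h
  exact h

theorem hasDerivAt_Th (Q B : H →L[ℝ] H) (a : ℝ) :
    HasDerivAt (fun r : ℝ => Th Q B r) (Th Q (B * Q - Q * B) a) a := by
  have h1 := ((hasDerivAt_heat_neg_op Q a).mul_const B).mul (hasDerivAt_heat_op Q a)
  have h2 : HasDerivAt (fun r : ℝ => Th Q B r) _ a := h1
  refine h2.congr_deriv ?_
  unfold Th
  noncomm_ring

end conj

section loc

variable [CompleteSpace H]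
variable {π : Perm X →* (H →L[ℝ] H)}

/-- Two pairs of points meet. -/
def Meets (f g : X × X) : Prop := f.1 = g.1 ∨ f.1 = g.2 ∨ f.2 = g.1 ∨ f.2 = g.2

instance (f g : X × X) : Decidable (Meets f g) := by
  unfold Meets
  infer_instance

theorem Meets.symm {f g : X × X} (h : Meets f g) : Meets g f := by
  unfold Meets at *
  rcases h with h | h | h | h
  · exact Or.inl h.symm
  · exact Or.inr (Or.inr (Or.inl h.symm))
  · exact Or.inr (Or.inl h.symm)
  · exact Or.inr (Or.inr (Or.inr h.symm))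

theorem meets_comm (f g : X × X) : Meets f g ↔ Meets g f := ⟨Meets.symm, Meets.symm⟩

/-- The operators `Θ_f(a)`. -/
noncomputable def Tf (π : Perm X →* (H →L[ℝ] H)) (q : X → X → ℝ) (a : ℝ) (f : X × X) :
    H →L[ℝ] H := Th (Lw π q) (BB π f.1 f.2) a

theorem Tf_zero (π : Perm X →* (H →L[ℝ] H)) (q : X → X → ℝ) (f : X × X) :
    Tf π q 0 f = BB π f.1 f.2 := Th_zero _ _

/-- The derivative of `Θ_f`. -/
noncomputable def Df (π : Perm X →* (H →L[ℝ] H)) (q : X → X → ℝ) (a : ℝ) (f : X × X) :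
    H →L[ℝ] H :=
  ∑ g : X × X, q g.1 g.2 • (Tf π q a f * Tf π q a g - Tf π q a g * Tf π q a f)

theorem hasDerivAt_Tf (π : Perm X →* (H →L[ℝ] H)) (q : X → X → ℝ) (a : ℝ) (f : X × X) :
    HasDerivAt (fun r => Tf π q r f) (Df π q a f) a := by
  have h : HasDerivAt (fun r => Tf π q r f) _ a := hasDerivAt_Th (Lw π q) (BB π f.1 f.2) a
  refine h.congr_deriv ?_
  unfold Df
  have e : BB π f.1 f.2 * Lw π q - Lw π q * BB π f.1 f.2
      = ∑ g : X × X, q g.1 g.2 • (BB π f.1 f.2 * BB π g.1 g.2 - BB π g.1 g.2 * BB π f.1 f.2) := by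
    rw [Lw_eq_sum, Finset.mul_sum, Finset.sum_mul, ← Finset.sum_sub_distrib]
    refine Finset.sum_congr rfl fun g _ => ?_
    rw [mul_smul_comm, smul_mul_assoc, smul_sub]
  rw [e, Th_sum]
  refine Finset.sum_congr rfl fun g _ => ?_
  rw [Th_smul, Th_sub, Th_mul, Th_mul]
  rfl

theorem comm_Tf_of_not_meets (π : Perm X →* (H →L[ℝ] H)) (q : X → X → ℝ) (a : ℝ) {f g : X × X}
    (h : ¬ Meets f g) : Tf π q a f * Tf π q a g - Tf π q a g * Tf π q a f = 0 := by
  unfold Meets at h
  push Not at h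
  have hc := BB_comm_of_ne π h.1 h.2.1 h.2.2.1 h.2.2.2
  unfold Tf
  rw [← Th_mul, ← Th_mul, hc.eq, sub_self]

variable {q : X → X → ℝ} {ρ : ℝ}

theorem sum_meets_le (hq0 : ∀ p r, 0 ≤ q p r) (hsym : ∀ p r, q p r = q r p)
    (hrate : ∀ p, ∑ r, q p r ≤ ρ) (f : X × X) :
    ∑ g : X × X, (if Meets f g then q g.1 g.2 else 0) ≤ 4 * ρ := by
  have h1 : ∀ u : X, ∑ g : X × X, (if g.1 = u then q g.1 g.2 else 0) ≤ ρ := by
    intro u
    rw [Fintype.sum_prod_type]
    simp only
    rw [Finset.sum_eq_single u]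
    · simpa using hrate u
    · intro b _ hb
      simp [hb]
    · simp
  have h2 : ∀ u : X, ∑ g : X × X, (if g.2 = u then q g.1 g.2 else 0) ≤ ρ := by
    intro u
    rw [Fintype.sum_prod_type_right]
    simp only
    rw [Finset.sum_eq_single u]
    · have := hrate u
      simp only [if_true]
      refine le_trans (le_of_eq ?_) this
      exact Finset.sum_congr rfl fun r _ => hsym r u
    · intro b _ hb
      simp [hb]
    · simp
  have h3 : ∀ g : X × X, (if Meets f g then q g.1 g.2 else 0)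
      ≤ (if g.1 = f.1 then q g.1 g.2 else 0) + (if g.2 = f.1 then q g.1 g.2 else 0)
        + (if g.1 = f.2 then q g.1 g.2 else 0) + (if g.2 = f.2 then q g.1 g.2 else 0) := by
    intro g
    have h0 := hq0 g.1 g.2
    by_cases hm : Meets f g
    · rw [if_pos hm]
      rcases hm with hm | hm | hm | hm
      · rw [if_pos hm.symm]
        split_ifs <;> linarith
      · rw [if_pos hm.symm]
        split_ifs <;> linarith
      · rw [if_pos hm.symm]
        split_ifs <;> linarith
      · rw [if_pos hm.symm]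
        split_ifs <;> linarith
    · rw [if_neg hm]
      split_ifs <;> linarith
  calc ∑ g : X × X, (if Meets f g then q g.1 g.2 else 0)
      ≤ ∑ g : X × X, ((if g.1 = f.1 then q g.1 g.2 else 0) + (if g.2 = f.1 then q g.1 g.2 else 0)
        + (if g.1 = f.2 then q g.1 g.2 else 0) + (if g.2 = f.2 then q g.1 g.2 else 0)) :=
        Finset.sum_le_sum fun g _ => h3 g
    _ ≤ 4 * ρ := by
        simp only [Finset.sum_add_distrib]
        linarith [h1 f.1, h2 f.1, h1 f.2, h2 f.2]

theorem Df_norm_le (hq0 : ∀ p r, 0 ≤ q p r) (hsym : ∀ p r, q p r = q r p)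
    (hrate : ∀ p, ∑ r, q p r ≤ ρ) {a N : ℝ} (hN : ∀ g, ‖Tf π q a g‖ ≤ N) (f : X × X) :
    ‖Df π q a f‖ ≤ 8 * ρ * N ^ 2 := by
  have h0 : 0 ≤ N := (norm_nonneg _).trans (hN f)
  have hterm : ∀ g : X × X, ‖q g.1 g.2 • (Tf π q a f * Tf π q a g - Tf π q a g * Tf π q a f)‖
      ≤ (if Meets f g then q g.1 g.2 else 0) * (2 * N ^ 2) := by
    intro g
    by_cases hm : Meets f g
    · rw [if_pos hm, norm_smul, Real.norm_of_nonneg (hq0 _ _)]
      apply mul_le_mul_of_nonneg_left _ (hq0 _ _)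
      have h1 : ‖Tf π q a f * Tf π q a g‖ ≤ N * N :=
        (norm_mul_le _ _).trans (mul_le_mul (hN f) (hN g) (norm_nonneg _) h0)
      have h2 : ‖Tf π q a g * Tf π q a f‖ ≤ N * N :=
        (norm_mul_le _ _).trans (mul_le_mul (hN g) (hN f) (norm_nonneg _) h0)
      refine (norm_sub_le _ _).trans ?_
      nlinarith
    · rw [if_neg hm, comm_Tf_of_not_meets π q a hm]
      simp
  unfold Df
  refine (norm_sum_le _ _).trans ?_
  refine (Finset.sum_le_sum fun g _ => hterm g).trans ?_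
  rw [← Finset.sum_mul]
  have h2 := sum_meets_le hq0 hsym hrate f
  have h3 : 0 ≤ 2 * N ^ 2 := by positivity
  calc (∑ g : X × X, if Meets f g then q g.1 g.2 else 0) * (2 * N ^ 2)
      ≤ 4 * ρ * (2 * N ^ 2) := mul_le_mul_of_nonneg_right h2 h3
    _ = 8 * ρ * N ^ 2 := by ring

/-- The family `Θ_f` as a single function with values in a product. -/
noncomputable def TF (π : Perm X →* (H →L[ℝ] H)) (q : X → X → ℝ) (σ a : ℝ) :
    X × X → (H →L[ℝ] H) := fun f => Tf π q (σ * a) f

theorem hasDerivAt_TF (π : Perm X →* (H →L[ℝ] H)) (q : X → X → ℝ) (σ a : ℝ) :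
    HasDerivAt (TF π q σ) (fun f => σ • Df π q (σ * a) f) a := by
  rw [hasDerivAt_pi]
  intro f
  have h1 := hasDerivAt_Tf π q (σ * a) f
  have h2 : HasDerivAt (fun r : ℝ => σ * r) σ a := by
    simpa using (hasDerivAt_id a).const_mul σ
  exact h1.scomp a h2

/-- **Locality.** The conjugated projections stay bounded. -/
theorem Tf_norm_le (hπ : IsOrth π) (hq0 : ∀ p r, 0 ≤ q p r) (hsym : ∀ p r, q p r = q r p)
    (hrate : ∀ p, ∑ r, q p r ≤ ρ) (hρ : ρ ≤ 1 / 128) {a : ℝ} (ha : |a| ≤ 1) (f : X × X) :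
    ‖Tf π q a f‖ ≤ 3 / 2 := by
  -- a sign `σ` with `a = σ * |a|`
  obtain ⟨σ, hσ, hσa⟩ : ∃ σ : ℝ, |σ| = 1 ∧ a = σ * |a| := by
    rcases le_total 0 a with h | h
    · exact ⟨1, by simp, by rw [abs_of_nonneg h]; ring⟩
    · exact ⟨-1, by simp, by rw [abs_of_nonpos h]; ring⟩
  have hb : ∀ x ∈ Set.Icc (0 : ℝ) 1, ‖TF π q σ x‖ ≤ 5 / 4 + x / 4 := by
    refine image_norm_le_of_norm_deriv_right_lt_deriv_boundary'
      (f := TF π q σ) (f' := fun x f => σ • Df π q (σ * x) f) (B := fun x => 5 / 4 + x / 4)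
      (B' := fun _ => 1 / 4) ?_ ?_ ?_ ?_ ?_ ?_
    · exact fun x _ => (hasDerivAt_TF π q σ x).continuousAt.continuousWithinAt
    · exact fun x _ => (hasDerivAt_TF π q σ x).hasDerivWithinAt
    · rw [pi_norm_le_iff_of_nonneg (by norm_num)]
      intro f
      simp only [TF, mul_zero, Tf_zero]
      refine (BB_opNorm_le hπ _ _).trans ?_
      norm_num
    · exact Continuous.continuousOn (by fun_prop)
    · intro x _
      have : HasDerivAt (fun x : ℝ => 5 / 4 + x / 4) (1 / 4) x := by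
        simpa using ((hasDerivAt_id x).div_const 4).const_add (5 / 4)
      exact this.hasDerivWithinAt
    · intro x hx hnorm
      have hN : ∀ g, ‖Tf π q (σ * x) g‖ ≤ 3 / 2 := by
        intro g
        have h1 : ‖TF π q σ x g‖ ≤ ‖TF π q σ x‖ := norm_le_pi_norm _ g
        rw [hnorm] at h1
        have h2 : x ≤ 1 := hx.2.le
        simp only [TF] at h1
        linarith
      have hd : ‖(fun f => σ • Df π q (σ * x) f)‖ ≤ 18 * ρ := by
        have hρ0 : 0 ≤ ρ := by
          have h1 := hrate f.1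
          have h2 : 0 ≤ ∑ r, q f.1 r := Finset.sum_nonneg fun r _ => hq0 _ _
          linarith
        rw [pi_norm_le_iff_of_nonneg (by positivity)]
        intro f
        rw [norm_smul, Real.norm_eq_abs, hσ, one_mul]
        refine (Df_norm_le hq0 hsym hrate hN f).trans (le_of_eq ?_)
        ring
      calc _ ≤ 18 * ρ := hd
        _ < 1 / 4 := by linarith
  have h1 := hb |a| ⟨abs_nonneg a, ha⟩
  have h2 : ‖TF π q σ |a| f‖ ≤ ‖TF π q σ |a|‖ := norm_le_pi_norm _ f
  simp only [TF] at h2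
  rw [← hσa] at h2
  linarith

/-- The energy of `z` for the conjugated projections. -/
noncomputable def Gz (π : Perm X →* (H →L[ℝ] H)) (q : X → X → ℝ) (z : H) (a : ℝ) : ℝ :=
  ∑ f : X × X, q f.1 f.2 * ‖Tf π q a f z‖ ^ 2

/-- The derivative of the energy. -/
noncomputable def Gz' (π : Perm X →* (H →L[ℝ] H)) (q : X → X → ℝ) (z : H) (a : ℝ) : ℝ :=
  ∑ f : X × X, q f.1 f.2 * (2 * ⟪Tf π q a f z, Df π q a f z⟫)

theorem hasDerivAt_Gz (π : Perm X →* (H →L[ℝ] H)) (q : X → X → ℝ) (z : H) (a : ℝ) :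
    HasDerivAt (Gz π q z) (Gz' π q z a) a := by
  unfold Gz Gz'
  have h : ∀ f : X × X, HasDerivAt (fun r => q f.1 f.2 * ‖Tf π q r f z‖ ^ 2)
      (q f.1 f.2 * (2 * ⟪Tf π q a f z, Df π q a f z⟫)) a := by
    intro f
    have h1 : HasDerivAt (fun r => Tf π q r f z) (Df π q a f z) a := by
      have := (hasDerivAt_Tf π q a f).clm_apply (hasDerivAt_const a z)
      simpa using this
    exact h1.norm_sq.const_mul _
  exact HasDerivAt.fun_sum (u := (univ : Finset (X × X))) fun f _ => h f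

theorem Gz_nonneg (hq0 : ∀ p r, 0 ≤ q p r) (z : H) (a : ℝ) : 0 ≤ Gz π q z a :=
  Finset.sum_nonneg fun f _ => mul_nonneg (hq0 _ _) (by positivity)

theorem Gz_zero (hπ : IsOrth π) (z : H) : Gz π q z 0 = ⟪z, Lw π q z⟫ := by
  unfold Gz
  rw [inner_Lw hπ, Fintype.sum_prod_type]
  simp only [Tf_zero]

/-- The derivative of the energy is controlled by the energy. -/
theorem Gz'_abs_le (hπ : IsOrth π) (hq0 : ∀ p r, 0 ≤ q p r) (hsym : ∀ p r, q p r = q r p)
    (hrate : ∀ p, ∑ r, q p r ≤ ρ) (hρ : ρ ≤ 1 / 128) {a : ℝ} (ha : |a| ≤ 1) (z : H) :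
    |Gz' π q z a| ≤ 24 * ρ * Gz π q z a := by
  set A : X × X → ℝ := fun f => ‖Tf π q a f z‖ ^ 2 with hA
  have hA0 : ∀ f, 0 ≤ A f := fun f => by simp only [hA]; positivity
  have hT := fun f => Tf_norm_le hπ hq0 hsym hrate hρ ha f
  -- one term
  have hterm : ∀ f g : X × X,
      |⟪Tf π q a f z, (Tf π q a f * Tf π q a g - Tf π q a g * Tf π q a f) z⟫|
        ≤ (if Meets f g then 1 else 0) * ((9 / 4) * A f + (3 / 4) * A g) := by
    intro f g
    by_cases hm : Meets f g
    · rw [if_pos hm, one_mul]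
      rw [sub_apply, inner_sub_right, mul_apply_eq_comp, mul_apply_eq_comp]
      set u := Tf π q a f z with hu
      set v := Tf π q a g z with hv
      have h1 : |⟪u, Tf π q a f v⟫| ≤ ‖u‖ * ((3 / 2) * ‖v‖) := by
        refine (abs_real_inner_le_norm _ _).trans ?_
        apply mul_le_mul_of_nonneg_left _ (norm_nonneg _)
        exact ((Tf π q a f).le_opNorm v).trans (mul_le_mul_of_nonneg_right (hT f) (norm_nonneg _))
      have h2 : |⟪u, Tf π q a g u⟫| ≤ ‖u‖ * ((3 / 2) * ‖u‖) := by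
        refine (abs_real_inner_le_norm _ _).trans ?_
        apply mul_le_mul_of_nonneg_left _ (norm_nonneg _)
        exact ((Tf π q a g).le_opNorm u).trans (mul_le_mul_of_nonneg_right (hT g) (norm_nonneg _))
      have h3 : A f = ‖u‖ ^ 2 := rfl
      have h4 : A g = ‖v‖ ^ 2 := rfl
      rw [h3, h4]
      have h5 := abs_sub (⟪u, Tf π q a f v⟫) (⟪u, Tf π q a g u⟫)
      nlinarith [sq_nonneg (‖u‖ - ‖v‖), norm_nonneg u, norm_nonneg v]
    · rw [if_neg hm, comm_Tf_of_not_meets π q a hm]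
      simp
  have hρ0 : 0 ≤ ρ ∨ IsEmpty X := by
    by_cases hX : IsEmpty X
    · exact Or.inr hX
    · rw [not_isEmpty_iff] at hX
      obtain ⟨p⟩ := hX
      have h1 := hrate p
      have h2 : 0 ≤ ∑ r, q p r := Finset.sum_nonneg fun r _ => hq0 _ _
      exact Or.inl (by linarith)
  -- the term in the derivative
  have hf : ∀ f : X × X, |⟪Tf π q a f z, Df π q a f z⟫|
      ≤ ∑ g : X × X, (if Meets f g then q g.1 g.2 else 0) * ((9 / 4) * A f + (3 / 4) * A g) := by
    intro f
    unfold Df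
    rw [_root_.sum_apply, inner_sum]
    refine (Finset.abs_sum_le_sum_abs _ _).trans (Finset.sum_le_sum fun g _ => ?_)
    rw [smul_apply, inner_smul_right, abs_mul, abs_of_nonneg (hq0 _ _)]
    have := mul_le_mul_of_nonneg_left (hterm f g) (hq0 g.1 g.2)
    refine this.trans (le_of_eq ?_)
    split_ifs <;> ring
  -- summing
  have hsum1 : ∑ f : X × X, q f.1 f.2 * (∑ g : X × X, (if Meets f g then q g.1 g.2 else 0) * A f)
      ≤ 4 * ρ * Gz π q z a := by
    unfold Gz
    rw [Finset.mul_sum]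
    refine Finset.sum_le_sum fun f _ => ?_
    rw [← Finset.sum_mul]
    have h1 := sum_meets_le hq0 hsym hrate f
    have h2 : 0 ≤ q f.1 f.2 * A f := mul_nonneg (hq0 _ _) (hA0 f)
    calc q f.1 f.2 * ((∑ g : X × X, if Meets f g then q g.1 g.2 else 0) * A f)
        = (∑ g : X × X, if Meets f g then q g.1 g.2 else 0) * (q f.1 f.2 * A f) := by ring
      _ ≤ 4 * ρ * (q f.1 f.2 * A f) := mul_le_mul_of_nonneg_right h1 h2
  have hsum2 : ∑ f : X × X, q f.1 f.2 * (∑ g : X × X, (if Meets f g then q g.1 g.2 else 0) * A g)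
      ≤ 4 * ρ * Gz π q z a := by
    have e : ∑ f : X × X, q f.1 f.2 * (∑ g : X × X, (if Meets f g then q g.1 g.2 else 0) * A g)
        = ∑ g : X × X, q g.1 g.2 * (∑ f : X × X, (if Meets g f then q f.1 f.2 else 0) * A g) := by
      simp_rw [Finset.mul_sum]
      rw [Finset.sum_comm]
      refine Finset.sum_congr rfl fun g _ => Finset.sum_congr rfl fun f _ => ?_
      by_cases hm : Meets f g
      · rw [if_pos hm, if_pos hm.symm]
        ring
      · rw [if_neg hm, if_neg (fun h => hm h.symm)]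
        ring
    rw [e]
    exact hsum1
  have hmain : |Gz' π q z a| ≤ ∑ f : X × X, q f.1 f.2 * (2 *
      ∑ g : X × X, (if Meets f g then q g.1 g.2 else 0) * ((9 / 4) * A f + (3 / 4) * A g)) := by
    unfold Gz'
    refine (Finset.abs_sum_le_sum_abs _ _).trans (Finset.sum_le_sum fun f _ => ?_)
    rw [abs_mul, abs_of_nonneg (hq0 _ _), abs_mul]
    apply mul_le_mul_of_nonneg_left _ (hq0 _ _)
    rw [abs_of_pos (by norm_num : (0 : ℝ) < 2)]
    exact mul_le_mul_of_nonneg_left (hf f) (by norm_num)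
  refine hmain.trans ?_
  have e2 : ∑ f : X × X, q f.1 f.2 * (2 *
      ∑ g : X × X, (if Meets f g then q g.1 g.2 else 0) * ((9 / 4) * A f + (3 / 4) * A g))
      = (9 / 2) * ∑ f : X × X, q f.1 f.2 * (∑ g : X × X, (if Meets f g then q g.1 g.2 else 0) * A f)
        + (3 / 2) * ∑ f : X × X, q f.1 f.2 *
            (∑ g : X × X, (if Meets f g then q g.1 g.2 else 0) * A g) := by
    rw [Finset.mul_sum, Finset.mul_sum, ← Finset.sum_add_distrib]
    refine Finset.sum_congr rfl fun f _ => ?_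
    have e3 : ∑ g : X × X, (if Meets f g then q g.1 g.2 else 0) * ((9 / 4) * A f + (3 / 4) * A g)
        = (9 / 4) * ∑ g : X × X, (if Meets f g then q g.1 g.2 else 0) * A f
          + (3 / 4) * ∑ g : X × X, (if Meets f g then q g.1 g.2 else 0) * A g := by
      rw [Finset.mul_sum, Finset.mul_sum, ← Finset.sum_add_distrib]
      refine Finset.sum_congr rfl fun g _ => ?_
      ring
    rw [e3]
    ring
  rw [e2]
  nlinarith

/-- A Gronwall inequality on `[0, 1]`. -/
theorem gron_aux {G G' : ℝ → ℝ} {K : ℝ} (hG : ∀ x ∈ Set.Icc (0 : ℝ) 1, HasDerivAt G (G' x) x)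
    (hb : ∀ x ∈ Set.Icc (0 : ℝ) 1, G' x ≤ K * G x) {x : ℝ} (hx : x ∈ Set.Icc (0 : ℝ) 1) :
    G x ≤ Real.exp (K * x) * G 0 := by
  set F : ℝ → ℝ := fun r => Real.exp (-(K * r)) * G r with hF
  have hd : ∀ r ∈ Set.Icc (0 : ℝ) 1, HasDerivAt F
      (Real.exp (-(K * r)) * (-(K * 1)) * G r + Real.exp (-(K * r)) * G' r) r := by
    intro r hr
    have h1 : HasDerivAt (fun r : ℝ => -(K * r)) (-(K * 1)) r :=
      ((hasDerivAt_id r).const_mul K).neg
    exact h1.exp.mul (hG r hr)
  have hanti : AntitoneOn F (Set.Icc 0 1) := by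
    apply antitoneOn_of_deriv_nonpos (convex_Icc 0 1)
    · exact fun r hr => (hd r hr).continuousAt.continuousWithinAt
    · intro r hr
      exact (hd r (interior_subset hr)).differentiableAt.differentiableWithinAt
    · intro r hr
      have hr' := interior_subset hr
      rw [(hd r hr').deriv]
      have h1 := hb r hr'
      have h2 := Real.exp_pos (-(K * r))
      nlinarith
  have h := hanti ⟨le_refl 0, zero_le_one⟩ hx hx.1
  simp only [hF, mul_zero, neg_zero, Real.exp_zero, one_mul] at h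
  have h3 := Real.exp_pos (K * x)
  have h4 : Real.exp (K * x) * Real.exp (-(K * x)) = 1 := by
    rw [← Real.exp_add]
    simp
  calc G x = Real.exp (K * x) * (Real.exp (-(K * x)) * G x) := by
        rw [← mul_assoc, h4, one_mul]
    _ ≤ Real.exp (K * x) * G 0 := mul_le_mul_of_nonneg_left h h3.le

/-- **The energy bound.** -/
theorem Gz_le (hπ : IsOrth π) (hq0 : ∀ p r, 0 ≤ q p r) (hsym : ∀ p r, q p r = q r p)
    (hrate : ∀ p, ∑ r, q p r ≤ ρ) (hρ : ρ ≤ 1 / 128) {a : ℝ} (ha : |a| ≤ 1) (z : H) :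
    Gz π q z a ≤ 2 * ⟪z, Lw π q z⟫ := by
  by_cases hX : IsEmpty X
  · have : Gz π q z a = 0 := by
      unfold Gz
      exact Finset.sum_eq_zero fun f _ => (hX.false f.1).elim
    rw [this]
    have h0 : ⟪z, Lw π q z⟫ = 0 := by
      rw [inner_Lw hπ]
      exact Finset.sum_eq_zero fun p _ => (hX.false p).elim
    rw [h0]
    simp
  rw [not_isEmpty_iff] at hX
  obtain ⟨p⟩ := hX
  have hρ0 : 0 ≤ ρ := by
    have h1 := hrate p
    have h2 : 0 ≤ ∑ r, q p r := Finset.sum_nonneg fun r _ => hq0 _ _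
    linarith
  have hexp : Real.exp (3 / 16) ≤ 2 := by
    have h1 : Real.exp (3 / 16) ≤ Real.exp 1 := Real.exp_le_exp.mpr (by norm_num)
    have h2 : Real.exp (1 / 2) ^ 2 = Real.exp 1 := by
      rw [← Real.exp_nat_mul]
      norm_num
    have h3 : Real.exp (3 / 16) ≤ Real.exp (1 / 2) := Real.exp_le_exp.mpr (by norm_num)
    have h4 := Real.exp_one_lt_d9
    have h5 := Real.exp_pos (1 / 2 : ℝ)
    nlinarith
  have hfinal : ∀ x ∈ Set.Icc (0 : ℝ) 1, Real.exp (24 * ρ * x) ≤ 2 := by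
    intro x hx
    refine le_trans (Real.exp_le_exp.mpr ?_) hexp
    nlinarith [hx.1, hx.2]
  have hG0 := Gz_nonneg (π := π) hq0 z 0
  rcases le_total 0 a with h | h
  · have hx : a ∈ Set.Icc (0 : ℝ) 1 := ⟨h, by rwa [abs_of_nonneg h] at ha⟩
    have h1 := gron_aux (G := Gz π q z) (G' := Gz' π q z) (K := 24 * ρ)
      (fun x _ => hasDerivAt_Gz π q z x)
      (fun x hx => (le_abs_self _).trans
        (Gz'_abs_le hπ hq0 hsym hrate hρ (by rw [abs_of_nonneg hx.1]; exact hx.2) z)) hx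
    rw [Gz_zero hπ] at h1
    rw [Gz_zero hπ] at hG0
    exact h1.trans (mul_le_mul_of_nonneg_right (hfinal a hx) hG0)
  · have hx : -a ∈ Set.Icc (0 : ℝ) 1 := ⟨by linarith, by rwa [abs_of_nonpos h] at ha⟩
    have hd : ∀ x : ℝ, HasDerivAt (fun r => Gz π q z (-r)) (-(Gz' π q z (-x))) x := by
      intro x
      have h1 : HasDerivAt (fun r => Gz π q z (-r)) (Gz' π q z (-x) * (-1)) x :=
        (hasDerivAt_Gz π q z (-x)).comp x (hasDerivAt_neg x)
      exact h1.congr_deriv (by ring)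
    have h1 := gron_aux (G := fun r => Gz π q z (-r)) (G' := fun x => -(Gz' π q z (-x)))
      (K := 24 * ρ) (fun x _ => hd x)
      (fun x hx => (neg_le_abs _).trans
        (Gz'_abs_le hπ hq0 hsym hrate hρ (by rw [abs_neg, abs_of_nonneg hx.1]; exact hx.2) z)) hx
    simp only [neg_neg, neg_zero] at h1
    rw [Gz_zero hπ] at h1
    rw [Gz_zero hπ] at hG0
    exact h1.trans (mul_le_mul_of_nonneg_right (hfinal (-a) hx) hG0)

end loc

end Vale.Agent.Lib.P162G
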