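import Vale.Agent.Lib.P162G.TwoCard
import Vale.Agent.Lib.P162.Compare

/-!
# The total variation bound for decks of every even size
-/

open scoped InnerProductSpace

namespace Vale.Agent.Lib.P162G

open Equiv Finset
open Vale.Agent.Lib.P162

/-- The numerical condition. -/
theorem numeric_cond' {m K : ℕ} (h1 : 2 * m ≤ 2 ^ K) (hm : 0 < m) :
    ((2 * m : ℕ) : ℝ) ^ 2 * Real.exp (-(2 * (K : ℝ) + 2)) ≤ 1 / 5 := by
  have he1 : (2 : ℝ) ≤ Real.exp 1 := by
    have := Real.add_one_le_exp (1 : ℝ)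
    linarith
  have he2 : Real.exp 2 = Real.exp 1 * Real.exp 1 := by
    rw [← Real.exp_add]; norm_num
  have he3 : (7 : ℝ) ≤ Real.exp 2 := by
    have := Real.exp_one_gt_d9
    rw [he2]
    nlinarith
  have h2 : ((2 * m : ℕ) : ℝ) ≤ 2 ^ K := by exact_mod_cast h1
  have h3 : ((2 * m : ℕ) : ℝ) ^ 2 ≤ (2 ^ K) ^ 2 := pow_le_pow_left₀ (by positivity) h2 2
  have h5 : ((2 : ℝ) ^ K) ^ 2 ≤ Real.exp (2 * K) := by
    have h6 : ((2 : ℝ) ^ K) ^ 2 = (4 : ℝ) ^ K := by
      rw [← pow_mul, mul_comm, pow_mul]; norm_num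
    rw [h6]
    have h7 : Real.exp (2 * K) = (Real.exp 2) ^ K := by
      rw [← Real.exp_nat_mul]; ring_nf
    rw [h7]
    exact pow_le_pow_left₀ (by norm_num) (by linarith) K
  calc ((2 * m : ℕ) : ℝ) ^ 2 * Real.exp (-(2 * (K : ℝ) + 2))
      ≤ Real.exp (2 * K) * Real.exp (-(2 * (K : ℝ) + 2)) :=
        mul_le_mul_of_nonneg_right (h3.trans h5) (Real.exp_pos _).le
    _ = Real.exp (-2) := by
        rw [← Real.exp_add]; ring_nf
    _ ≤ 1 / 5 := by
        rw [Real.exp_neg, ← one_div]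
        exact one_div_le_one_div_of_le (by norm_num) (by linarith)

/-- The main bound when `m ≥ 2`. -/
theorem tv_main {m : ℕ} (hm : 2 ≤ m) :
    tvDist (convPow (thorpLaw m)
        ((Nat.clog 2 (2 * m) + 2) * (8640 * (Nat.clog 2 (2 * m) + 2) * (2 * Nat.clog 2 (2 * m) + 2))))
      (unif _) ≤ 1 / 4 := by
  set K := Nat.clog 2 (2 * m) with hK
  have : Nonempty (Fin (2 * m)) := ⟨⟨0, by omega⟩⟩
  have hK1 : 2 * m ≤ 2 ^ K := Nat.le_pow_clog (by norm_num) _
  have hK2 : 2 ^ K.pred < 2 * m := Nat.pow_pred_clog_lt_self (by norm_num) (by omega)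
  have hKpos : 1 ≤ K := by
    by_contra hK0
    have : K = 0 := by omega
    rw [this] at hK1
    simp at hK1
    omega
  have hK3 : 2 ^ K < 4 * m := by
    obtain ⟨k, hk⟩ : ∃ k, K = k + 1 := ⟨K - 1, by omega⟩
    rw [hk] at hK2 ⊢
    simp only [Nat.pred_succ] at hK2
    rw [pow_succ]
    omega
  have hmR : (0 : ℝ) < m := by
    have : 0 < m := by omega
    exact_mod_cast this
  have hKR : (0 : ℝ) < (K : ℝ) + 2 := by positivity
  set ρ : ℝ := 1 / (1080 * ((K : ℝ) + 2)) with hρ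
  have hρ0 : 0 < ρ := by positivity
  have hκ0 : 540 * ρ = 1 / (2 * ((K : ℝ) + 2)) := by
    rw [hρ]
    field_simp
    ring
  have hκ : 540 * ρ ≤ 1 := by
    rw [hκ0, div_le_one (by positivity)]
    have : (0 : ℝ) ≤ K := by positivity
    linarith
  set c : ℝ := 1 - 540 * ρ with hc
  have hc0 : 0 ≤ c := by rw [hc]; linarith
  have hc1 : c ≤ 1 := by rw [hc]; linarith
  -- the power of `c`
  have hcpow : 1 / 2 ≤ c ^ (K + 1) := by
    have h1 := one_add_mul_le_pow (a := -(540 * ρ)) (by linarith) (K + 1)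
    have h2 : 1 + -(540 * ρ) = c := by rw [hc]; ring
    rw [h2] at h1
    refine le_trans ?_ h1
    rw [hκ0]
    push_cast
    have h3 : ((K : ℝ) + 1) * -(1 / (2 * ((K : ℝ) + 2))) = -(((K : ℝ) + 1) / (2 * ((K : ℝ) + 2))) := by
      field_simp
    rw [h3]
    have h4 : ((K : ℝ) + 1) / (2 * ((K : ℝ) + 2)) ≤ 1 / 2 := by
      rw [div_le_iff₀ (by positivity)]
      have : (0 : ℝ) ≤ K := by positivity
      linarith
    linarith
  set π := piG m with hπdef
  have hπ : IsOrth π := piG_isOrth m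
  set w := wk (SS m) c ρ (K + 1) with hw
  have hcomp : Comp π ((π (SS m) * Col π) ^ (K + 1 + 1)) w :=
    wk_comp hπ (SS m) hρ0 hκ hρ0.le le_rfl (K + 1)
  -- the lower bound of the weights
  set ε : ℝ := ρ / (16 * (m : ℝ)) with hε
  have hε0 : 0 < ε := by positivity
  have hlow : ∀ p q, p ≠ q → ε ≤ w p q := by
    intro p q hpq
    refine le_trans ?_ (lower_final hc0 hρ0.le hm p q hpq)
    have h1 : ((2 : ℝ) ^ K) ≤ 4 * m := by
      have : ((2 ^ K : ℕ) : ℝ) ≤ ((4 * m : ℕ) : ℝ) := by exact_mod_cast hK3.le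
      push_cast at this
      exact this
    have h2 : 1 / (8 * (m : ℝ)) ≤ 1 / (2 * 2 ^ K) := by
      apply one_div_le_one_div_of_le (by positivity)
      linarith
    have h3 : (1 / 2) * ρ ≤ c ^ (K + 1) * ρ := mul_le_mul_of_nonneg_right hcpow hρ0.le
    have h4 : (1 / 2) * ρ * (1 / (8 * (m : ℝ))) ≤ c ^ (K + 1) * ρ * (1 / (2 * 2 ^ K)) :=
      mul_le_mul h3 h2 (by positivity) (by positivity)
    have h5 : ε = (1 / 2) * ρ * (1 / (8 * (m : ℝ))) := by
      rw [hε]
      field_simp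
      ring
    rw [h5]
    exact h4
  -- the spectral hypothesis
  have hyp : ∀ (l : ℝ) (f : ThorpL2.Fn (Fin (2 * m))), ThorpL2.Dl f = l • f →
      ‖((ThorpL2.convOp (thorpLaw m)) ^ (K + 2)) f‖ ^ 2
        ≤ Real.exp (-((2 * ε) * l)) * ‖f‖ ^ 2 := by
    intro l f hf
    rw [convOp_pow_eq']
    have h1 : ‖((π (SS m) * Col π) ^ (K + 2)) f‖ ≤ ‖heat (lap univ π) (-ε) f‖ :=
      (hcomp f).trans (heat_le_lap hπ hlow f)
    have h2 : lap univ π f = l • f := by rw [lap_piG, hf]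
    rw [heat_eigen _ f l (-ε) h2, norm_smul, Real.norm_eq_abs, abs_of_pos (Real.exp_pos _)] at h1
    have h3 : Real.exp (-((2 * ε) * l)) = Real.exp (-ε * l) ^ 2 := by
      rw [← Real.exp_nat_mul]
      congr 1
      push_cast
      ring
    rw [h3, ← mul_pow]
    exact pow_le_pow_left₀ (norm_nonneg _) h1 2
  -- the numerical condition
  have hcard : Fintype.card (Fin (2 * m)) = 2 * m := Fintype.card_fin _
  have hnum := numeric_cond' hK1 (by omega : 0 < m)
  have hmain := ThorpL2.tv_le_quarter (thorpLaw_sum m) (b := 2 * ε) (by positivity) (K + 2) hyp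
    (8640 * (K + 2) * (2 * K + 2)) (by
      rw [hcard]
      have e : (((8640 * (K + 2) * (2 * K + 2) : ℕ) : ℝ) * (2 * ε)) * ((2 * m : ℕ) : ℝ) / 2
          = 2 * (K : ℝ) + 2 := by
        rw [hε, hρ]
        push_cast
        field_simp
        ring
      rw [e]
      exact hnum)
  unfold tvDist unif
  rw [convPow_eq_thorpL2, Fintype.card_perm]
  exact hmain

/-- **Main theorem**: after `311040 * (clog 2 (2 * m)) ^ 3` shuffles the deck of `2 * m` cards is
within total variation distance `1 / 4` of uniform. -/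
theorem tv_all {m t : ℕ} (hm : 1 ≤ m) (ht : 311040 * (Nat.clog 2 (2 * m)) ^ 3 ≤ t) :
    tvDist (convPow (thorpLaw m) t) (unif _) ≤ 1 / 4 := by
  rcases Nat.lt_or_ge m 2 with h1 | h2
  · have hm1 : m = 1 := by omega
    subst hm1
    have e : Nat.clog 2 (2 * 1) = 1 := by norm_num
    rw [e] at ht
    have h3 := tv_thorp_all 0 t (sig (0 + 1)) (sig_lower (0 + 1))
      (fun f => compare (0 + 1) (piE 0) (piE_isOrth 0) f) (by omega)
    exact h3
  · set K := Nat.clog 2 (2 * m) with hK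
    have hK1 : 2 * m ≤ 2 ^ K := Nat.le_pow_clog (by norm_num) _
    have hKpos : 1 ≤ K := by
      by_contra hK0
      have : K = 0 := by omega
      rw [this] at hK1
      simp at hK1
      omega
    refine (tv_antitone (thorpLaw m) (thorpLaw_nonneg _) (thorpLaw_sum _) ?_).trans (tv_main h2)
    rw [← hK]
    refine le_trans ?_ ht
    have h3 : K + 2 ≤ 3 * K := by omega
    have h4 : 2 * K + 2 ≤ 4 * K := by omega
    calc (K + 2) * (8640 * (K + 2) * (2 * K + 2))
        ≤ (3 * K) * (8640 * (3 * K) * (4 * K)) := by gcongr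
      _ = 311040 * K ^ 3 := by ring

end Vale.Agent.Lib.P162G
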