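import Vale.Agent.Lib.P162G.Rec
import Vale.Agent.Lib.P162.Assemble

/-!
# The Thorp shuffle on a deck of `2 * m` cards as an operator on a product of columns
-/

open scoped InnerProductSpace

namespace Vale.Agent.Lib.P162G

open Equiv Finset
open Vale.Agent.Lib.P162

variable (m : ℕ)

/-- The identification of the two rows of `m` positions with the deck. -/
def ee : Fin 2 × Fin m ≃ Fin (2 * m) := finProdFinEquiv

theorem ee_val (p : Fin 2 × Fin m) : ((ee m p : Fin (2 * m)) : ℕ) = (p.2 : ℕ) + m * (p.1 : ℕ) :=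
  finProdFinEquiv_apply_val p

/-- The representation on functions on the deck group. -/
noncomputable def piG : Perm (Fin 2 × Fin m) →*
    (ThorpL2.Fn (Fin (2 * m)) →L[ℝ] ThorpL2.Fn (Fin (2 * m))) :=
  (leftCLM (Fin (2 * m))).comp ((ee m).permCongrHom.toMonoidHom)

theorem piG_apply (h : Perm (Fin 2 × Fin m)) :
    piG m h = leftCLM (Fin (2 * m)) ((ee m).permCongr h) := rfl

theorem piG_isOrth : IsOrth (piG m) := by
  intro g u v
  exact ThorpL2.leftRep.inner_map ((ee m).permCongr g) u v

/-- The deterministic part of the shuffle, on the product of columns. -/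
noncomputable def SS : Perm (Fin 2 × Fin m) := (ee m).symm.permCongr (thorpPerm m 0)

theorem permCongr_SS : (ee m).permCongr (SS m) = thorpPerm m 0 := by
  unfold SS
  ext1 x
  simp [Equiv.permCongr_apply]

variable {m}

theorem thorpPos_ee (c : Fin m → Fin 2) (b : Fin 2) (y : Fin m) :
    thorpPos m c (ee m (b, y)) = 2 * (y : ℕ) + ((b + c y : Fin 2) : ℕ) := by
  unfold thorpPos
  have hv := ee_val (m := m) (b, y)
  simp only at hv
  have hy := y.2
  rcases fin2_cases b with rfl | rfl
  · have hv0 : ((ee m (0, y) : Fin (2 * m)) : ℕ) = y := by simpa using hv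
    have h1 : ((ee m (0, y) : Fin (2 * m)) : ℕ) < m := by omega
    rw [dif_pos h1]
    have h2 : (⟨(ee m (0, y) : Fin (2 * m)), h1⟩ : Fin m) = y := Fin.ext hv0
    rw [h2, hv0]
    simp
  · have hv1 : ((ee m (1, y) : Fin (2 * m)) : ℕ) = y + m := by simpa using hv
    have h1 : ¬ ((ee m (1, y) : Fin (2 * m)) : ℕ) < m := by omega
    rw [dif_neg h1]
    have h2 : (⟨((ee m (1, y) : Fin (2 * m)) : ℕ) - m, by omega⟩ : Fin m) = y := by
      apply Fin.ext
      simp only
      omega
    rw [h2]
    have key : ∀ a : Fin 2, 1 - (a : ℕ) = ((1 + a : Fin 2) : ℕ) := by decide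
    have key2 : ∀ a : Fin 2, (a : ℕ) ≤ 1 := by decide
    have h4 := key (c y)
    have h5 := key2 (c y)
    omega

theorem thorp_conj (c : Fin m → Fin 2) : thorpPerm m c = (ee m).permCongr (SS m * flip c) := by
  ext1 x
  obtain ⟨⟨b, y⟩, rfl⟩ := (ee m).surjective x
  have h1 : (ee m).permCongr (SS m * flip c) (ee m (b, y))
      = thorpPerm m 0 (ee m (b + c y, y)) := by
    rw [Equiv.permCongr_apply]
    simp only [symm_apply_apply, Perm.coe_mul, Function.comp_apply, flip_apply]
    unfold SS
    rw [Equiv.permCongr_apply]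
    simp
  rw [h1]
  apply Fin.ext
  rw [thorpPerm_val, thorpPerm_val, thorpPos_ee, thorpPos_ee]
  simp

/-- The value of the position after the deterministic step. -/
theorem ee_SS_val (b : Fin 2) (y : Fin m) :
    ((ee m (SS m (b, y)) : Fin (2 * m)) : ℕ) = 2 * (y : ℕ) + (b : ℕ) := by
  have h1 : ee m (SS m (b, y)) = thorpPerm m 0 (ee m (b, y)) := by
    unfold SS
    rw [Equiv.permCongr_apply]
    simp
  rw [h1, thorpPerm_val, thorpPos_ee]
  simp

/-- One step of the shuffle, as an operator. -/
theorem convOp_eq (f : ThorpL2.Fn (Fin (2 * m))) :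
    ThorpL2.convOp (thorpLaw m) f = (piG m (SS m) * Col (piG m)) f := by
  rw [ThorpL2.convOp_eq_sum]
  have h1 := sum_thorpLaw m (fun g : Perm (Fin (2 * m)) => ThorpL2.leftRep.ρ g f)
  rw [h1]
  unfold Col
  rw [mul_apply_eq_comp, smul_apply, map_smul, _root_.sum_apply, map_sum]
  have hcard : Fintype.card (Fin m) = m := by simp
  rw [hcard]
  congr 1
  refine Finset.sum_congr rfl ?_
  intro c _
  have h3 : ThorpL2.leftRep.ρ (thorpPerm m c) f = leftCLM _ (thorpPerm m c) f := rfl
  rw [h3, thorp_conj, ← piG_apply, map_mul]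
  rfl

/-- Powers of one step. -/
theorem convOp_pow_eq' (t : ℕ) (f : ThorpL2.Fn (Fin (2 * m))) :
    ((ThorpL2.convOp (thorpLaw m)) ^ t) f = ((piG m (SS m) * Col (piG m)) ^ t) f := by
  induction t generalizing f with
  | zero => simp
  | succ t ih =>
    rw [pow_succ', Module.End.mul_apply, convOp_eq, ih, pow_succ']
    rfl

/-- The transposition Laplacian. -/
theorem lap_piG (f : ThorpL2.Fn (Fin (2 * m))) : lap univ (piG m) f = ThorpL2.Dl f := by
  show _ = ThorpL2.regRep.DC univ f
  rw [← ThorpL2.leftRep_DC_eq, lap_apply, ThorpL2.ORep.DC_apply, Finset.smul_sum]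
  refine Finset.sum_equiv (ee m) (by simp) ?_
  intro a _
  rw [Finset.smul_sum]
  refine Finset.sum_equiv (ee m) (by simp) ?_
  intro b _
  congr 1
  have h : (ee m).permCongr (swap a b) = swap (ee m a) (ee m b) := by
    rw [Equiv.permCongr_def]
    exact Equiv.symm_trans_swap_trans a b (ee m)
  rw [piG_apply, h]
  rfl

end Vale.Agent.Lib.P162G
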