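import Vale.Agent.Lib.P162G.Sec
import Vale.Agent.Lib.P162.Sector

/-!
# The one step comparison for a weighted Laplacian on a product of columns

Let `w` be a symmetric nonnegative weight on `Fin 2 × C` with rates at most `ρ`, and let `wbar w` be
its average over the column flips.  On vectors fixed by the column flips the heat flow of `w` at time
one is dominated in norm by the heat flow of `wbar w` at time `1 - 540 ρ`.
-/

namespace Vale.Agent.Lib.P162G

open Equiv Finset NormedSpace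
open Vale.Agent.Lib.P162
open scoped RealInnerProductSpace

set_option linter.unusedSectionVars false
set_option linter.unusedDecidableInType false

variable {H : Type*} [NormedAddCommGroup H] [InnerProductSpace ℝ H]
variable {C : Type*} [Fintype C] [DecidableEq C]

section pair

variable {P : (C → Fin 2) → H →L[ℝ] H}

/-- The majorant of a pair of sector terms. -/
noncomputable def NN (P : (C → Fin 2) → H →L[ℝ] H) (Tp Tm : H →L[ℝ] H) (θ μ : ℝ) (z : C) (Y : H)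
    (s : C → Fin 2) : ℝ :=
  (1 - bitR (s z)) * (Real.exp (θ * wt s) * (5 * μ / 2 * (‖Tp (P s Y)‖ ^ 2 + ‖Tm (P s Y)‖ ^ 2)))
    + bitR (s z) * (Real.exp (θ * wt s) * (‖P s Y‖ ^ 2 / (2 * μ)))

theorem pair_real2 {gl gh n a b μ : ℝ} (hgl : 0 < gl) (h1 : gl ≤ gh) (h2 : gh ≤ 2 * gl) (hμ : 0 < μ)
    (hn : 0 ≤ n) (ha : 0 ≤ a) (hb : 0 ≤ b) :
    gl * (n * a) + gh * (n * b) ≤ gl * (5 * μ / 2 * (b ^ 2 + a ^ 2)) + gh * (n ^ 2 / (2 * μ)) := by
  have h3 : gh * (n * b) ≤ 2 * gl * (n * b) :=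
    mul_le_mul_of_nonneg_right h2 (mul_nonneg hn hb)
  have h4 : n * (a + 2 * b) ≤ μ / 2 * (a + 2 * b) ^ 2 + n ^ 2 / (2 * μ) := by
    have h5 : 0 ≤ (μ * (a + 2 * b) - n) ^ 2 / (2 * μ) := by positivity
    have h6 : (μ * (a + 2 * b) - n) ^ 2 / (2 * μ)
        = μ / 2 * (a + 2 * b) ^ 2 + n ^ 2 / (2 * μ) - n * (a + 2 * b) := by
      field_simp
      ring
    linarith
  have h7 : (a + 2 * b) ^ 2 ≤ 5 * (b ^ 2 + a ^ 2) := by nlinarith [sq_nonneg (2 * a - b)]
  have h8 : μ / 2 * (a + 2 * b) ^ 2 ≤ 5 * μ / 2 * (b ^ 2 + a ^ 2) := by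
    have := mul_le_mul_of_nonneg_left h7 (by positivity : (0 : ℝ) ≤ μ / 2)
    calc μ / 2 * (a + 2 * b) ^ 2 ≤ μ / 2 * (5 * (b ^ 2 + a ^ 2)) := this
      _ = _ := by ring
  have h9 : gl * (n ^ 2 / (2 * μ)) ≤ gh * (n ^ 2 / (2 * μ)) :=
    mul_le_mul_of_nonneg_right h1 (by positivity)
  have h10 : gl * (n * (a + 2 * b)) ≤ gl * (5 * μ / 2 * (b ^ 2 + a ^ 2) + n ^ 2 / (2 * μ)) :=
    mul_le_mul_of_nonneg_left (by linarith) hgl.le
  nlinarith

theorem pair_low (P_symm : ∀ s u v, ⟪P s u, v⟫ = ⟪u, P s v⟫)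
    (P_idem : ∀ s u, P s (P s u) = P s u) {Tp Tm : H →L[ℝ] H} {δ : C → Fin 2} {z : C}
    (hδz : δ z = 1) (hδδ : ∀ s : C → Fin 2, s + δ + δ = s)
    (hTp : ∀ s u, P s (Tp u) = Tp (P (s + δ) u)) (adj : ∀ u v, ⟪Tp u, v⟫ = ⟪u, Tm v⟫)
    {θ μ : ℝ} (hθ : 0 ≤ θ) (hexp : Real.exp (2 * θ) ≤ 2) (hμ : 0 < μ) {l : C → Fin 2}
    (hl : l z = 0) (hw1 : wt l ≤ wt (l + δ)) (hw2 : wt (l + δ) ≤ wt l + 2) (Y : H) :
    |Real.exp (θ * wt l) * ⟪P l Y, Tp Y⟫ + Real.exp (θ * wt (l + δ)) * ⟪P (l + δ) Y, Tp Y⟫|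
      ≤ NN P Tp Tm θ μ z Y l + NN P Tp Tm θ μ z Y (l + δ) := by
  set h := l + δ with hh
  have e1 : ⟪P l Y, Tp Y⟫ = ⟪P h Y, Tm (P l Y)⟫ := by
    calc ⟪P l Y, Tp Y⟫ = ⟪P l (P l Y), Tp Y⟫ := by rw [P_idem]
      _ = ⟪P l Y, P l (Tp Y)⟫ := P_symm _ _ _
      _ = ⟪P l Y, Tp (P h Y)⟫ := by rw [hTp]
      _ = ⟪Tp (P h Y), P l Y⟫ := real_inner_comm _ _
      _ = _ := adj _ _
  have e2 : ⟪P h Y, Tp Y⟫ = ⟪P h Y, Tp (P l Y)⟫ := by
    calc ⟪P h Y, Tp Y⟫ = ⟪P h (P h Y), Tp Y⟫ := by rw [P_idem]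
      _ = ⟪P h Y, P h (Tp Y)⟫ := P_symm _ _ _
      _ = ⟪P h Y, Tp (P (h + δ) Y)⟫ := by rw [hTp]
      _ = _ := by rw [hh, hδδ]
  have hhz : h z = 1 := by
    rw [hh, Pi.add_apply, hl, hδz]
    decide
  have nl : NN P Tp Tm θ μ z Y l
      = Real.exp (θ * wt l) * (5 * μ / 2 * (‖Tp (P l Y)‖ ^ 2 + ‖Tm (P l Y)‖ ^ 2)) := by
    unfold NN
    rw [hl]
    simp
  have nh : NN P Tp Tm θ μ z Y h = Real.exp (θ * wt h) * (‖P h Y‖ ^ 2 / (2 * μ)) := by
    unfold NN
    rw [hhz]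
    simp
  rw [nl, nh, e1, e2]
  have hgl := Real.exp_pos (θ * wt l)
  have hgh := Real.exp_pos (θ * wt h)
  have h1 : Real.exp (θ * wt l) ≤ Real.exp (θ * wt h) :=
    Real.exp_le_exp.mpr (mul_le_mul_of_nonneg_left hw1 hθ)
  have h2 : Real.exp (θ * wt h) ≤ 2 * Real.exp (θ * wt l) := by
    have h3 : Real.exp (θ * wt h) ≤ Real.exp (2 * θ + θ * wt l) :=
      Real.exp_le_exp.mpr (by nlinarith)
    rw [Real.exp_add] at h3
    exact h3.trans (mul_le_mul_of_nonneg_right hexp hgl.le)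
  have hfin := pair_real2 (n := ‖P h Y‖) (a := ‖Tm (P l Y)‖) (b := ‖Tp (P l Y)‖) hgl h1 h2 hμ
    (norm_nonneg _) (norm_nonneg _) (norm_nonneg _)
  refine (abs_add_le _ _).trans (le_trans (add_le_add ?_ ?_) hfin)
  · rw [abs_mul, abs_of_pos hgl]
    exact mul_le_mul_of_nonneg_left (abs_real_inner_le_norm _ _) hgl.le
  · rw [abs_mul, abs_of_pos hgh]
    exact mul_le_mul_of_nonneg_left (abs_real_inner_le_norm _ _) hgh.le

theorem pair_all (P_symm : ∀ s u v, ⟪P s u, v⟫ = ⟪u, P s v⟫)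
    (P_idem : ∀ s u, P s (P s u) = P s u) {Tp Tm : H →L[ℝ] H} {δ : C → Fin 2} {z : C}
    (hδz : δ z = 1) (hδδ : ∀ s : C → Fin 2, s + δ + δ = s)
    (hTp : ∀ s u, P s (Tp u) = Tp (P (s + δ) u)) (adj : ∀ u v, ⟪Tp u, v⟫ = ⟪u, Tm v⟫)
    {θ μ : ℝ} (hθ : 0 ≤ θ) (hexp : Real.exp (2 * θ) ≤ 2) (hμ : 0 < μ)
    (hwt : ∀ s : C → Fin 2, s z = 0 → wt s ≤ wt (s + δ) ∧ wt (s + δ) ≤ wt s + 2) (Y : H)
    (s : C → Fin 2) :
    |Real.exp (θ * wt s) * ⟪P s Y, Tp Y⟫ + Real.exp (θ * wt (s + δ)) * ⟪P (s + δ) Y, Tp Y⟫|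
      ≤ NN P Tp Tm θ μ z Y s + NN P Tp Tm θ μ z Y (s + δ) := by
  rcases fin2_cases (s z) with h0 | h1
  · exact pair_low P_symm P_idem hδz hδδ hTp adj hθ hexp hμ h0 (hwt s h0).1 (hwt s h0).2 Y
  · have hl : (s + δ) z = 0 := by
      rw [Pi.add_apply, h1, hδz]
      decide
    have h2 := pair_low P_symm P_idem hδz hδδ hTp adj hθ hexp hμ hl (hwt _ hl).1 (hwt _ hl).2 Y
    rw [hδδ] at h2
    rw [add_comm (Real.exp (θ * wt s) * ⟪P s Y, Tp Y⟫), add_comm (NN P Tp Tm θ μ z Y s)]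
    exact h2

theorem type_sum (P_symm : ∀ s u v, ⟪P s u, v⟫ = ⟪u, P s v⟫)
    (P_idem : ∀ s u, P s (P s u) = P s u) {Tp Tm : H →L[ℝ] H} {δ : C → Fin 2} {z : C}
    (hδz : δ z = 1) (hδδ : ∀ s : C → Fin 2, s + δ + δ = s)
    (hTp : ∀ s u, P s (Tp u) = Tp (P (s + δ) u)) (adj : ∀ u v, ⟪Tp u, v⟫ = ⟪u, Tm v⟫)
    {θ μ : ℝ} (hθ : 0 ≤ θ) (hexp : Real.exp (2 * θ) ≤ 2) (hμ : 0 < μ)
    (hwt : ∀ s : C → Fin 2, s z = 0 → wt s ≤ wt (s + δ) ∧ wt (s + δ) ≤ wt s + 2) (Y : H)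
    {a q : ℝ} (hc : |a| ≤ q) :
    ∑ s, (-2 * a * (Real.exp (θ * wt s) * ⟪P s Y, Tp Y⟫))
      ≤ ∑ s, 2 * q * NN P Tp Tm θ μ z Y s := by
  refine sum_le_of_pair δ _ _ fun s => ?_
  have h1 := pair_all P_symm P_idem hδz hδδ hTp adj hθ hexp hμ hwt Y s
  set T := Real.exp (θ * wt s) * ⟪P s Y, Tp Y⟫ + Real.exp (θ * wt (s + δ)) * ⟪P (s + δ) Y, Tp Y⟫
    with hT
  have h2 : -2 * a * (Real.exp (θ * wt s) * ⟪P s Y, Tp Y⟫)
      + -2 * a * (Real.exp (θ * wt (s + δ)) * ⟪P (s + δ) Y, Tp Y⟫) = -(2 * (a * T)) := by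
    rw [hT]
    ring
  rw [h2, ← mul_add]
  have h3 : -(2 * (a * T)) ≤ 2 * |a * T| := by
    have := neg_abs_le (a * T)
    linarith
  rw [abs_mul] at h3
  have h4 : |a| * |T| ≤ q * (NN P Tp Tm θ μ z Y s + NN P Tp Tm θ μ z Y (s + δ)) :=
    mul_le_mul hc h1 (abs_nonneg _) ((abs_nonneg _).trans hc)
  linarith

end pair

theorem wt_add_single (s : C → Fin 2) (x : C) :
    wt (s + (Pi.single x 1 : C → Fin 2)) = wt s + (1 - 2 * bitR (s x)) := by
  have h1 : wt (s + (Pi.single x 1 : C → Fin 2)) - wt s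
      = ∑ z, (bitR ((s + (Pi.single x 1 : C → Fin 2)) z) - bitR (s z)) := by
    unfold wt
    rw [Finset.sum_sub_distrib]
  have h2 : ∑ z, (bitR ((s + (Pi.single x 1 : C → Fin 2)) z) - bitR (s z))
      = bitR ((s + (Pi.single x 1 : C → Fin 2)) x) - bitR (s x) := by
    refine Finset.sum_eq_single x ?_ (by simp)
    intro z _ hz
    simp [Pi.single_eq_of_ne hz]
  rw [h2, Pi.add_apply, Pi.single_eq_same, bitR_add_one] at h1
  linarith

theorem dl_one_zero (x y : C) : dl x y 1 0 = Pi.single x 1 := by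
  simp [dl]

theorem dl_zero_one (x y : C) : dl x y 0 1 = Pi.single y 1 := by
  simp [dl]

theorem dl_one_one (x y : C) : dl x y 1 1 = kk x y := rfl

theorem add_single_single (s : C → Fin 2) (x : C) :
    s + (Pi.single x 1 : C → Fin 2) + Pi.single x 1 = s := by
  funext z
  have : ∀ a e : Fin 2, a + e + e = a := by decide
  exact this _ _

/-- The exchange of the two columns in a double sum. -/
theorem sum_erase_swap (f : C → C → ℝ) :
    ∑ x, ∑ y ∈ (univ : Finset C).erase x, f x y = ∑ x, ∑ y ∈ (univ : Finset C).erase x, f y x := by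
  refine Finset.sum_comm' fun x y => ?_
  simp [ne_comm]

section static

variable [CompleteSpace H]
variable {π : Perm (Fin 2 × C) →* (H →L[ℝ] H)} {w : Fin 2 × C → Fin 2 × C → ℝ} {ρ : ℝ}

/-- The energy in the pairs of distinct columns is at most the conjugated energy. -/
theorem sum_eX_le (hw : ∀ p q, 0 ≤ w p q) (a : ℝ) (z : H) :
    ∑ x, ∑ y ∈ (univ : Finset C).erase x, qq w x y * eX π (Lw π (wbar w)) a x y z
      ≤ Gz π (wbar w) z a := by
  unfold Gz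
  rw [Fintype.sum_prod_type, sum_prod_prod]
  refine Finset.sum_le_sum fun x _ => ?_
  have h : ∑ y ∈ (univ : Finset C).erase x, qq w x y * eX π (Lw π (wbar w)) a x y z
      = ∑ y ∈ (univ : Finset C).erase x, ∑ b : Fin 2, ∑ b' : Fin 2,
        wbar w (b, x) (b', y) * ‖Tf π (wbar w) a ((b, x), (b', y)) z‖ ^ 2 := by
    refine Finset.sum_congr rfl fun y hy => ?_
    have hne : x ≠ y := (Finset.ne_of_mem_erase hy).symm
    unfold eX
    rw [Finset.mul_sum]
    refine Finset.sum_congr rfl fun b _ => ?_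
    rw [Finset.mul_sum]
    refine Finset.sum_congr rfl fun b' _ => ?_
    rw [wbar_diff (p := (b, x)) (q := (b', y)) hne]
    rfl
  rw [h]
  refine Finset.sum_le_sum_of_subset_of_nonneg (Finset.erase_subset _ _) fun y _ _ => ?_
  exact Finset.sum_nonneg fun b _ => Finset.sum_nonneg fun b' _ =>
    mul_nonneg (wbar_nonneg hw _ _) (by positivity)

/-- The combinatorial part of the norm term. -/
theorem sum_bits_le (hw : ∀ p q, 0 ≤ w p q) (hsym : ∀ p q, w p q = w q p)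
    (hrate : ∀ p, ∑ q, w p q ≤ ρ) (s : C → Fin 2) :
    ∑ x, ∑ y ∈ (univ : Finset C).erase x, qq w x y * (2 * bitR (s x) + bitR (s y))
      ≤ 3 * wt s * ρ / 2 := by
  have h1 : ∑ x, ∑ y ∈ (univ : Finset C).erase x, qq w x y * bitR (s y)
      = ∑ x, ∑ y ∈ (univ : Finset C).erase x, qq w x y * bitR (s x) := by
    rw [sum_erase_swap]
    refine Finset.sum_congr rfl fun x _ => Finset.sum_congr rfl fun y _ => ?_
    rw [qq_symm hsym]
  have h2 : ∑ x, ∑ y ∈ (univ : Finset C).erase x, qq w x y * (2 * bitR (s x) + bitR (s y))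
      = 3 * ∑ x, ∑ y ∈ (univ : Finset C).erase x, qq w x y * bitR (s x) := by
    have h3 : ∀ x, ∑ y ∈ (univ : Finset C).erase x, qq w x y * (2 * bitR (s x) + bitR (s y))
        = 2 * ∑ y ∈ (univ : Finset C).erase x, qq w x y * bitR (s x)
          + ∑ y ∈ (univ : Finset C).erase x, qq w x y * bitR (s y) := by
      intro x
      rw [Finset.mul_sum, ← Finset.sum_add_distrib]
      refine Finset.sum_congr rfl fun y _ => ?_
      ring
    simp_rw [h3]
    rw [Finset.sum_add_distrib, h1, ← Finset.mul_sum]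
    ring
  rw [h2]
  have h4 : ∀ x, ∑ y ∈ (univ : Finset C).erase x, qq w x y * bitR (s x)
      ≤ bitR (s x) * (ρ / 2) := by
    intro x
    rw [← Finset.sum_mul, mul_comm]
    exact mul_le_mul_of_nonneg_left (sum_qq_le hw hrate x) (bitR_nonneg _)
  have h5 := Finset.sum_le_sum (s := (univ : Finset C)) fun x _ => h4 x
  rw [← Finset.sum_mul] at h5
  change _ ≤ wt s * (ρ / 2) at h5
  linarith

/-- **The static inequality.** -/
theorem static_ineq (hπ : IsOrth π) (hw : ∀ p q, 0 ≤ w p q) (hsym : ∀ p q, w p q = w q p)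
    (hd : ∀ p, w p p = 0) (hrate : ∀ p, ∑ q, w p q ≤ ρ) (hρ0 : 0 < ρ) (hρ : ρ ≤ 1 / 128) {τ θ : ℝ}
    (hτ : |τ| ≤ 1) (hθ : 0 ≤ θ) (hexp : Real.exp (2 * θ) ≤ 2) (Y : H) :
    ∑ s, Real.exp (θ * wt s) *
        (-2 * ⟪PP π s Y, Th (Lw π (wbar w)) (Lw π w - Lw π (wbar w)) τ Y⟫)
      ≤ ∑ s, Real.exp (θ * wt s) * (1080 * ρ * ⟪PP π s Y, Lw π (wbar w) (PP π s Y)⟫
        + 1 / 3 * (wt s * ‖PP π s Y‖ ^ 2)) := by
  set Q := Lw π (wbar w) with hQdef
  set μ : ℝ := 9 * ρ / 2 with hμdef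
  have hμ : 0 < μ := by positivity
  have hQc : ∀ c : C → Fin 2, Commute (π (flip c)) Q := fun c => flip_comm_Q π hsym hd c
  have hQs : Symm Q := Lw_symm hπ _
  have P_symm : ∀ s u v, ⟪PP π s u, v⟫ = ⟪u, PP π s v⟫ := PP_symm hπ
  have P_idem : ∀ s u, PP π s (PP π s u) = PP π s u := PP_idem π
  -- the three types of pair terms
  have t10 : ∀ x y : C, x ≠ y →
      ∑ s, (-2 * cc w x y 1 0 * (Real.exp (θ * wt s) * ⟪PP π s Y, TT π Q τ x y 1 0 Y⟫))
        ≤ ∑ s, 2 * qq w x y * NN (PP π) (TT π Q τ x y 1 0) (TT π Q (-τ) x y 1 0) θ μ x Y s := by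
    intro x y _
    refine type_sum P_symm P_idem (δ := dl x y 1 0) ?_ ?_ (fun s u => PP_TT_apply hQc τ x y 1 0 s u)
      (fun u v => TT_adj hπ hQs τ x y 1 0 u v) hθ hexp hμ ?_ Y (cc_abs_le hw x y 1 0)
    · rw [dl_one_zero]
      simp
    · intro s
      rw [dl_one_zero]
      exact add_single_single s x
    · intro s hs
      rw [dl_one_zero, wt_add_single, hs, bitR_zero]
      constructor <;> linarith
  have t01 : ∀ x y : C, x ≠ y →
      ∑ s, (-2 * cc w x y 0 1 * (Real.exp (θ * wt s) * ⟪PP π s Y, TT π Q τ x y 0 1 Y⟫))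
        ≤ ∑ s, 2 * qq w x y * NN (PP π) (TT π Q τ x y 0 1) (TT π Q (-τ) x y 0 1) θ μ y Y s := by
    intro x y _
    refine type_sum P_symm P_idem (δ := dl x y 0 1) ?_ ?_ (fun s u => PP_TT_apply hQc τ x y 0 1 s u)
      (fun u v => TT_adj hπ hQs τ x y 0 1 u v) hθ hexp hμ ?_ Y (cc_abs_le hw x y 0 1)
    · rw [dl_zero_one]
      simp
    · intro s
      rw [dl_zero_one]
      exact add_single_single s y
    · intro s hs
      rw [dl_zero_one, wt_add_single, hs, bitR_zero]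
      constructor <;> linarith
  have t11 : ∀ x y : C, x ≠ y →
      ∑ s, (-2 * cc w x y 1 1 * (Real.exp (θ * wt s) * ⟪PP π s Y, TT π Q τ x y 1 1 Y⟫))
        ≤ ∑ s, 2 * qq w x y * NN (PP π) (TT π Q τ x y 1 1) (TT π Q (-τ) x y 1 1) θ μ x Y s := by
    intro x y hxy
    refine type_sum P_symm P_idem (δ := dl x y 1 1) ?_ ?_ (fun s u => PP_TT_apply hQc τ x y 1 1 s u)
      (fun u v => TT_adj hπ hQs τ x y 1 1 u v) hθ hexp hμ ?_ Y (cc_abs_le hw x y 1 1)
    · rw [dl_one_one, kk_apply_left hxy]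
    · intro s
      rw [dl_one_one]
      exact add_kk_kk s x y
    · intro s hs
      rw [dl_one_one, wt_add_kk s hxy, hs, bitR_zero]
      have h0 := bitR_nonneg (s y)
      have h1 := bitR_le_one (s y)
      constructor <;> linarith
  -- expansion of the left side
  have hL : ∑ s, Real.exp (θ * wt s) * (-2 * ⟪PP π s Y, Th Q (Lw π w - Q) τ Y⟫)
      = ∑ x, ∑ y ∈ (univ : Finset C).erase x,
        (∑ s, (-2 * cc w x y 1 0 * (Real.exp (θ * wt s) * ⟪PP π s Y, TT π Q τ x y 1 0 Y⟫))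
          + ∑ s, (-2 * cc w x y 0 1 * (Real.exp (θ * wt s) * ⟪PP π s Y, TT π Q τ x y 0 1 Y⟫))
          + ∑ s, (-2 * cc w x y 1 1 * (Real.exp (θ * wt s) * ⟪PP π s Y, TT π Q τ x y 1 1 Y⟫))) := by
    have e1 : ∀ s : C → Fin 2, Real.exp (θ * wt s) * (-2 * ⟪PP π s Y, Th Q (Lw π w - Q) τ Y⟫)
        = ∑ x, ∑ y ∈ (univ : Finset C).erase x,
          (-2 * cc w x y 1 0 * (Real.exp (θ * wt s) * ⟪PP π s Y, TT π Q τ x y 1 0 Y⟫)
            + -2 * cc w x y 0 1 * (Real.exp (θ * wt s) * ⟪PP π s Y, TT π Q τ x y 0 1 Y⟫)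
            + -2 * cc w x y 1 1 * (Real.exp (θ * wt s) * ⟪PP π s Y, TT π Q τ x y 1 1 Y⟫)) := by
      intro s
      rw [Rt_eq hd τ Q hQdef]
      simp only [_root_.sum_apply, add_apply, smul_apply]
      rw [inner_sum, Finset.mul_sum, Finset.mul_sum]
      refine Finset.sum_congr rfl fun x _ => ?_
      rw [inner_sum, Finset.mul_sum, Finset.mul_sum]
      refine Finset.sum_congr rfl fun y _ => ?_
      rw [inner_add_right, inner_add_right, inner_smul_right, inner_smul_right, inner_smul_right]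
      ring
    simp_rw [e1]
    rw [Finset.sum_comm]
    refine Finset.sum_congr rfl fun x _ => ?_
    rw [Finset.sum_comm]
    refine Finset.sum_congr rfl fun y _ => ?_
    rw [Finset.sum_add_distrib, Finset.sum_add_distrib]
  rw [hL]
  -- bound after swapping the sums
  have hB : ∑ x, ∑ y ∈ (univ : Finset C).erase x,
        (∑ s, (-2 * cc w x y 1 0 * (Real.exp (θ * wt s) * ⟪PP π s Y, TT π Q τ x y 1 0 Y⟫))
          + ∑ s, (-2 * cc w x y 0 1 * (Real.exp (θ * wt s) * ⟪PP π s Y, TT π Q τ x y 0 1 Y⟫))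
          + ∑ s, (-2 * cc w x y 1 1 * (Real.exp (θ * wt s) * ⟪PP π s Y, TT π Q τ x y 1 1 Y⟫)))
      ≤ ∑ s, ∑ x, ∑ y ∈ (univ : Finset C).erase x,
        (2 * qq w x y * NN (PP π) (TT π Q τ x y 1 0) (TT π Q (-τ) x y 1 0) θ μ x Y s
          + 2 * qq w x y * NN (PP π) (TT π Q τ x y 0 1) (TT π Q (-τ) x y 0 1) θ μ y Y s
          + 2 * qq w x y * NN (PP π) (TT π Q τ x y 1 1) (TT π Q (-τ) x y 1 1) θ μ x Y s) := by
    rw [Finset.sum_comm (s := (univ : Finset (C → Fin 2)))]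
    refine Finset.sum_le_sum fun x _ => ?_
    rw [Finset.sum_comm (s := (univ : Finset (C → Fin 2)))]
    refine Finset.sum_le_sum fun y hy => ?_
    have hne : x ≠ y := (Finset.ne_of_mem_erase hy).symm
    rw [Finset.sum_add_distrib, Finset.sum_add_distrib]
    exact add_le_add (add_le_add (t10 x y hne) (t01 x y hne)) (t11 x y hne)
  refine hB.trans (Finset.sum_le_sum fun s _ => ?_)
  -- the bound for a fixed sector
  set z := PP π s Y with hz
  set g := Real.exp (θ * wt s) with hg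
  have hg0 : 0 < g := Real.exp_pos _
  -- bound of one majorant
  have hNN : ∀ (x y : C) (d1 d2 : Fin 2) (t : C),
      NN (PP π) (TT π Q τ x y d1 d2) (TT π Q (-τ) x y d1 d2) θ μ t Y s
        ≤ g * (10 * μ * (eX π Q τ x y z + eX π Q (-τ) x y z))
          + bitR (s t) * (g * (‖z‖ ^ 2 / (2 * μ))) := by
    intro x y d1 d2 t
    unfold NN
    rw [← hz, ← hg]
    have h1 := TT_sq_le (π := π) Q τ x y d1 d2 z
    have h2 := TT_sq_le (π := π) Q (-τ) x y d1 d2 z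
    set a := ‖TT π Q τ x y d1 d2 z‖ ^ 2 with ha
    set b := ‖TT π Q (-τ) x y d1 d2 z‖ ^ 2 with hb
    have ha0 : 0 ≤ a := by positivity
    have hb0 : 0 ≤ b := by positivity
    have h3 := bitR_nonneg (s t)
    have h4 := bitR_le_one (s t)
    have h5 : 0 ≤ g * (5 * μ / 2 * (a + b)) := by positivity
    have h6 : (1 - bitR (s t)) * (g * (5 * μ / 2 * (a + b))) ≤ g * (5 * μ / 2 * (a + b)) := by
      nlinarith
    have h7 : g * (5 * μ / 2 * (a + b))
        ≤ g * (10 * μ * (eX π Q τ x y z + eX π Q (-τ) x y z)) := by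
      apply mul_le_mul_of_nonneg_left _ hg0.le
      nlinarith
    linarith
  -- bound of the pair
  have hpair : ∀ x, ∀ y ∈ (univ : Finset C).erase x,
      2 * qq w x y * NN (PP π) (TT π Q τ x y 1 0) (TT π Q (-τ) x y 1 0) θ μ x Y s
        + 2 * qq w x y * NN (PP π) (TT π Q τ x y 0 1) (TT π Q (-τ) x y 0 1) θ μ y Y s
        + 2 * qq w x y * NN (PP π) (TT π Q τ x y 1 1) (TT π Q (-τ) x y 1 1) θ μ x Y s
      ≤ g * (60 * μ * (qq w x y * eX π Q τ x y z) + 60 * μ * (qq w x y * eX π Q (-τ) x y z)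
        + (qq w x y * (2 * bitR (s x) + bitR (s y))) * (‖z‖ ^ 2 / μ)) := by
    intro x y _
    have hq := qq_nonneg hw x y
    have h1 := mul_le_mul_of_nonneg_left (hNN x y 1 0 x) (by positivity : 0 ≤ 2 * qq w x y)
    have h2 := mul_le_mul_of_nonneg_left (hNN x y 0 1 y) (by positivity : 0 ≤ 2 * qq w x y)
    have h3 := mul_le_mul_of_nonneg_left (hNN x y 1 1 x) (by positivity : 0 ≤ 2 * qq w x y)
    refine (add_le_add (add_le_add h1 h2) h3).trans (le_of_eq ?_)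
    field_simp
    ring
  refine (Finset.sum_le_sum fun x _ => Finset.sum_le_sum (hpair x)).trans ?_
  simp_rw [← Finset.mul_sum]
  apply mul_le_mul_of_nonneg_left _ hg0.le
  simp_rw [Finset.sum_add_distrib]
  simp_rw [← Finset.mul_sum, ← Finset.sum_mul]
  -- the three estimates
  have hq0 : ∀ p q, 0 ≤ wbar w p q := wbar_nonneg hw
  have hqs : ∀ p q, wbar w p q = wbar w q p := wbar_symm hsym
  have hqr : ∀ p, ∑ q, wbar w p q ≤ ρ := wbar_rate hw hsym hd hrate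
  have hA1 := (sum_eX_le (π := π) hw τ z).trans (Gz_le hπ hq0 hqs hqr hρ hτ z)
  have hA2 := (sum_eX_le (π := π) hw (-τ) z).trans
    (Gz_le hπ hq0 hqs hqr hρ (by rwa [abs_neg]) z)
  have hB2 := sum_bits_le (w := w) hw hsym hrate s
  rw [← hQdef] at hA1 hA2
  have hfin : ‖z‖ ^ 2 / μ * (3 * wt s * ρ / 2) = 1 / 3 * (wt s * ‖z‖ ^ 2) := by
    rw [hμdef]
    field_simp
    ring
  have h1 := mul_le_mul_of_nonneg_left hB2 (by positivity : 0 ≤ ‖z‖ ^ 2 / μ)
  have h2 := mul_le_mul_of_nonneg_left hA1 (by positivity : 0 ≤ 60 * μ)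
  have h3 := mul_le_mul_of_nonneg_left hA2 (by positivity : 0 ≤ 60 * μ)
  rw [hfin] at h1
  have h4 : 60 * μ * (2 * ⟪z, Q z⟫) + 60 * μ * (2 * ⟪z, Q z⟫) = 1080 * ρ * ⟪z, Q z⟫ := by
    rw [hμdef]
    ring
  linarith

end static

section lyap

variable [CompleteSpace H]
variable {π : Perm (Fin 2 × C) →* (H →L[ℝ] H)} {w : Fin 2 × C → Fin 2 × C → ℝ} {ρ : ℝ}

/-- The interpolating curve. -/
noncomputable def YY (L Q : H →L[ℝ] H) (c : ℝ) (u : H) (r : ℝ) : H :=
  heat Q (c * (r - 1)) (heat L (-r) u)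

theorem YY_hasDerivAt (L Q : H →L[ℝ] H) (c : ℝ) (u : H) (r : ℝ) :
    HasDerivAt (YY L Q c u)
      (-((1 - c) • Q (YY L Q c u r)) - Th Q (L - Q) (c * (1 - r)) (YY L Q c u r)) r := by
  have h0 : HasDerivAt (fun r : ℝ => c * (r - 1)) c r := by
    have := ((hasDerivAt_id r).sub_const 1).const_mul c
    simpa using this
  have h1 : HasDerivAt (fun r : ℝ => heat Q (c * (r - 1)))
      (c • (Q * heat Q (c * (r - 1)))) r := by
    have h00 : HasDerivAt (fun a : ℝ => heat Q a) (Q * heat Q ((fun r : ℝ => c * (r - 1)) r))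
        ((fun r : ℝ => c * (r - 1)) r) := hasDerivAt_heat_op Q (c * (r - 1))
    have h01 := HasDerivAt.scomp r h00 h0
    exact h01
  have h2 : HasDerivAt (fun r : ℝ => heat L (-r) u) (-(L (heat L (-r) u))) r := by
    have := heat_hasDerivAt (-L) u r
    simp only [heat_neg_op] at this
    simpa using this
  have h3 := h1.clm_apply h2
  unfold YY
  refine h3.congr_deriv ?_
  set a := c * (r - 1) with ha
  set x := heat L (-r) u with hx
  have e1 : c * (1 - r) = -a := by rw [ha]; ring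
  rw [e1]
  have e2 : Th Q (L - Q) (-a) (heat Q a x) = heat Q a ((L - Q) x) := by
    unfold Th
    have h4 : heat Q (-a) (heat Q a x) = x := by
      rw [← mul_apply_eq_comp, heat_inv_left]
      rfl
    simp only [mul_apply_eq_comp, neg_neg]
    rw [h4]
  rw [e2]
  have e3 : heat Q a (Q x) = Q (heat Q a x) := by
    have := (heat_comm (Commute.refl Q) a).eq
    have h5 := congrArg (fun T : H →L[ℝ] H => T x) this
    simpa using h5
  simp only [add_apply, smul_apply, mul_apply_eq_comp, map_neg, sub_apply, map_sub, neg_sub]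
  rw [e3, sub_smul, one_smul]
  abel

/-- The Lyapunov function. -/
noncomputable def FF (π : Perm (Fin 2 × C) →* (H →L[ℝ] H)) (L Q : H →L[ℝ] H) (c : ℝ) (u : H)
    (r : ℝ) : ℝ :=
  ∑ s, Real.exp (1 / 3 * (1 - r) * wt s) * ‖PP π s (YY L Q c u r)‖ ^ 2

theorem FF_hasDerivAt (π : Perm (Fin 2 × C) →* (H →L[ℝ] H)) (L Q : H →L[ℝ] H) (c : ℝ) (u : H)
    (r : ℝ) :
    HasDerivAt (FF π L Q c u)
      (∑ s, (Real.exp (1 / 3 * (1 - r) * wt s) * (-(1 / 3 * wt s)) * ‖PP π s (YY L Q c u r)‖ ^ 2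
        + Real.exp (1 / 3 * (1 - r) * wt s) * (2 * ⟪PP π s (YY L Q c u r), PP π s
            (-((1 - c) • Q (YY L Q c u r)) - Th Q (L - Q) (c * (1 - r)) (YY L Q c u r))⟫))) r := by
  unfold FF
  have h1 : ∀ s : C → Fin 2, HasDerivAt
      (fun r => Real.exp (1 / 3 * (1 - r) * wt s) * ‖PP π s (YY L Q c u r)‖ ^ 2)
      (Real.exp (1 / 3 * (1 - r) * wt s) * (-(1 / 3 * wt s)) * ‖PP π s (YY L Q c u r)‖ ^ 2
        + Real.exp (1 / 3 * (1 - r) * wt s) * (2 * ⟪PP π s (YY L Q c u r), PP π s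
            (-((1 - c) • Q (YY L Q c u r)) - Th Q (L - Q) (c * (1 - r)) (YY L Q c u r))⟫)) r := by
    intro s
    have h2 : HasDerivAt (fun r : ℝ => 1 / 3 * (1 - r) * wt s) (-(1 / 3 * wt s)) r := by
      have : HasDerivAt (fun r : ℝ => 1 / 3 * (1 - r) * wt s) (1 / 3 * (0 - 1) * wt s) r :=
        (((hasDerivAt_const r (1 : ℝ)).sub (hasDerivAt_id r)).const_mul (1 / 3 : ℝ)).mul_const (wt s)
      convert this using 1
      ring
    have h3 := h2.exp
    have h4 : HasDerivAt (fun r => PP π s (YY L Q c u r)) (PP π s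
        (-((1 - c) • Q (YY L Q c u r)) - Th Q (L - Q) (c * (1 - r)) (YY L Q c u r))) r :=
      (PP π s).hasFDerivAt.comp_hasDerivAt r (YY_hasDerivAt L Q c u r)
    have h5 := h4.norm_sq
    exact h3.mul h5
  exact HasDerivAt.fun_sum (u := (univ : Finset (C → Fin 2))) fun s _ => h1 s

theorem exp_two_thirds_le : Real.exp (2 / 3) ≤ 2 := by
  have h1 : Real.exp (2 / 3) ^ 3 = Real.exp 1 ^ 2 := by
    rw [← Real.exp_nat_mul, ← Real.exp_nat_mul]
    norm_num
  have h2 := Real.exp_one_lt_d9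
  have h3 := Real.exp_pos 1
  have h4 : Real.exp 1 ^ 2 ≤ 2 ^ 3 := by nlinarith
  rw [← h1] at h4
  exact le_of_pow_le_pow_left₀ (by norm_num) (by norm_num) h4

/-- **The one step comparison.** -/
theorem RJ (hπ : IsOrth π) (hw : ∀ p q, 0 ≤ w p q) (hsym : ∀ p q, w p q = w q p)
    (hd : ∀ p, w p p = 0) (hrate : ∀ p, ∑ q, w p q ≤ ρ) (hρ0 : 0 < ρ) (hκ : 540 * ρ ≤ 1) (v : H) :
    ‖heat (Lw π w) (-1) (Col π v)‖ ≤ ‖heat (Lw π (wbar w)) (-(1 - 540 * ρ)) (Col π v)‖ := by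
  have hρ : ρ ≤ 1 / 128 := by linarith
  set L := Lw π w with hL
  set Q := Lw π (wbar w) with hQ
  set c : ℝ := 1 - 540 * ρ with hc
  set u := Col π v with hu
  have hc0 : 0 ≤ c := by rw [hc]; linarith
  have hc1 : c ≤ 1 := by rw [hc]; linarith
  have P_symm : ∀ s u v, ⟪PP π s u, v⟫ = ⟪u, PP π s v⟫ := PP_symm hπ
  have P_idem : ∀ s u, PP π s (PP π s u) = PP π s u := PP_idem π
  have hPQ : ∀ s, Commute (PP π s) Q := fun s => PP_comm_Q π hsym hd s
  have hanti : AntitoneOn (FF π L Q c u) (Set.Icc 0 1) := by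
    apply antitoneOn_of_deriv_nonpos (convex_Icc 0 1)
    · intro r _
      exact (FF_hasDerivAt π L Q c u r).continuousAt.continuousWithinAt
    · intro r _
      exact (FF_hasDerivAt π L Q c u r).differentiableAt.differentiableWithinAt
    · intro r hr
      rw [(FF_hasDerivAt π L Q c u r).deriv]
      rw [interior_Icc] at hr
      set Y := YY L Q c u r with hY
      set τ := c * (1 - r) with hτ
      set θ : ℝ := 1 / 3 * (1 - r) with hθ
      have hτ1 : |τ| ≤ 1 := by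
        rw [abs_of_nonneg (mul_nonneg hc0 (by linarith [hr.2]))]
        nlinarith [hr.1, hr.2]
      have hθ0 : 0 ≤ θ := by
        rw [hθ]
        have := hr.2
        nlinarith
      have hθ1 : Real.exp (2 * θ) ≤ 2 := by
        refine le_trans (Real.exp_le_exp.mpr ?_) exp_two_thirds_le
        rw [hθ]
        have := hr.1
        nlinarith
      have hs := static_ineq hπ hw hsym hd hrate hρ0 hρ hτ1 hθ0 hθ1 Y
      rw [← hL, ← hQ] at hs
      have e : ∀ s : C → Fin 2,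
          Real.exp (θ * wt s) * (-(1 / 3 * wt s)) * ‖PP π s Y‖ ^ 2
            + Real.exp (θ * wt s) * (2 * ⟪PP π s Y, PP π s (-((1 - c) • Q Y) - Th Q (L - Q) τ Y)⟫)
          = Real.exp (θ * wt s) * (-2 * ⟪PP π s Y, Th Q (L - Q) τ Y⟫)
            - Real.exp (θ * wt s) * (1080 * ρ * ⟪PP π s Y, Q (PP π s Y)⟫
              + 1 / 3 * (wt s * ‖PP π s Y‖ ^ 2)) := by
        intro s
        have e1 : ⟪PP π s Y, PP π s (-((1 - c) • Q Y) - Th Q (L - Q) τ Y)⟫
            = -((1 - c) * ⟪PP π s Y, Q (PP π s Y)⟫) - ⟪PP π s Y, Th Q (L - Q) τ Y⟫ := by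
          rw [← P_symm, P_idem, inner_sub_right, inner_neg_right, inner_smul_right]
          have e2 : ⟪PP π s Y, Q Y⟫ = ⟪PP π s Y, Q (PP π s Y)⟫ := by
            have h1 := P_symm s (PP π s Y) (Q Y)
            rw [P_idem] at h1
            rw [h1]
            have h2 := congrArg (fun T : H →L[ℝ] H => T Y) (hPQ s).eq
            simp only [mul_apply_eq_comp] at h2
            rw [h2]
          rw [e2]
        rw [e1]
        have e3 : 1 - c = 540 * ρ := by rw [hc]; ring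
        rw [e3]
        ring
      rw [Finset.sum_congr rfl fun s _ => e s, Finset.sum_sub_distrib]
      linarith
  have h0 : (0 : ℝ) ∈ Set.Icc (0 : ℝ) 1 := ⟨le_rfl, zero_le_one⟩
  have h1 : (1 : ℝ) ∈ Set.Icc (0 : ℝ) 1 := ⟨zero_le_one, le_rfl⟩
  have hmain := hanti h0 h1 zero_le_one
  have hF1 : FF π L Q c u 1 = ‖heat L (-1) u‖ ^ 2 := by
    unfold FF YY
    simp only [sub_self, mul_zero, zero_mul, Real.exp_zero, one_mul]
    rw [PP_parseval hπ, heat_zero]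
    rfl
  have hF0 : FF π L Q c u 0 = ‖heat Q (-c) u‖ ^ 2 := by
    unfold FF YY
    have e0 : c * (0 - 1) = -c := by ring
    simp only [e0, sub_zero, mul_one, neg_zero, heat_zero, one_apply_eq_self]
    rw [Finset.sum_eq_single (0 : C → Fin 2)]
    · have hwt0 : wt (0 : C → Fin 2) = 0 := by simp [wt]
      rw [hwt0, mul_zero, Real.exp_zero, one_mul]
      have h2 := congrArg (fun T : H →L[ℝ] H => T u) ((heat_comm (hPQ 0).symm (-c)).eq)
      simp only [mul_apply_eq_comp] at h2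
      rw [← h2]
      have h3 : PP π 0 u = u := by
        rw [hu, Col_eq_PP, P_idem]
      rw [h3]
    · intro s _ hs
      have h2 := congrArg (fun T : H →L[ℝ] H => T u) ((heat_comm (hPQ s).symm (-c)).eq)
      simp only [mul_apply_eq_comp] at h2
      rw [← h2]
      have h3 : PP π s u = 0 := by
        rw [hu, Col_eq_PP, ← mul_apply_eq_comp, PP_mul, if_neg hs]
        rfl
      rw [h3]
      simp
    · simp
  rw [hF1, hF0] at hmain
  exact (pow_le_pow_iff_left₀ (norm_nonneg _) (norm_nonneg _) (by norm_num)).mp hmain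

end lyap

end Vale.Agent.Lib.P162G
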