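import Vale.Agent.Lib.P162G.RJ
import Vale.Agent.Lib.P162.Compare

/-!
# The recursion of weights along the layers
-/

namespace Vale.Agent.Lib.P162G

open Equiv Finset NormedSpace
open Vale.Agent.Lib.P162
open scoped RealInnerProductSpace

set_option linter.unusedSectionVars false
set_option linter.unusedDecidableInType false

variable {H : Type*} [NormedAddCommGroup H] [InnerProductSpace ℝ H] [CompleteSpace H]
variable {C : Type*} [Fintype C] [DecidableEq C]
variable {π : Perm (Fin 2 × C) →* (H →L[ℝ] H)} {w : Fin 2 × C → Fin 2 × C → ℝ} {ρ : ℝ}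

/-- The next weights: transport by `S`, average over the flips, and shrink by `c`. -/
noncomputable def nxt (S : Perm (Fin 2 × C)) (c : ℝ) (w : Fin 2 × C → Fin 2 × C → ℝ)
    (p q : Fin 2 × C) : ℝ :=
  c * wbar (fun p q => w (S p) (S q)) p q

/-- The conditions on weights. -/
structure Good (ρ : ℝ) (w : Fin 2 × C → Fin 2 × C → ℝ) : Prop where
  nonneg : ∀ p q, 0 ≤ w p q
  symm : ∀ p q, w p q = w q p
  diag : ∀ p, w p p = 0
  rate : ∀ p, ∑ q, w p q ≤ ρ

theorem Good.comp (h : Good ρ w) (S : Perm (Fin 2 × C)) :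
    Good ρ (fun p q => w (S p) (S q)) where
  nonneg p q := h.nonneg _ _
  symm p q := h.symm _ _
  diag p := h.diag _
  rate p := by
    have := h.rate (S p)
    rwa [← Equiv.sum_comp S] at this

theorem Good.nxt (h : Good ρ w) (S : Perm (Fin 2 × C)) {c : ℝ} (hc0 : 0 ≤ c) (hc1 : c ≤ 1)
    (hρ : 0 ≤ ρ) : Good ρ (nxt S c w) where
  nonneg p q := mul_nonneg hc0 (wbar_nonneg (h.comp S).nonneg _ _)
  symm p q := by
    unfold Vale.Agent.Lib.P162G.nxt
    rw [wbar_symm (h.comp S).symm]
  diag p := by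
    unfold Vale.Agent.Lib.P162G.nxt
    rw [wbar_diag (h.comp S).diag, mul_zero]
  rate p := by
    unfold Vale.Agent.Lib.P162G.nxt
    rw [← Finset.mul_sum]
    have h1 := wbar_rate (h.comp S).nonneg (h.comp S).symm (h.comp S).diag (h.comp S).rate p
    have h2 : 0 ≤ ∑ q, wbar (fun p q => w (S p) (S q)) p q :=
      Finset.sum_nonneg fun q _ => wbar_nonneg (h.comp S).nonneg _ _
    nlinarith

/-- The comparison of an operator with a heat flow. -/
def Comp (π : Perm (Fin 2 × C) →* (H →L[ℝ] H)) (T : H →L[ℝ] H)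
    (w : Fin 2 × C → Fin 2 × C → ℝ) : Prop :=
  ∀ v, ‖T v‖ ≤ ‖heat (Lw π w) (-1) v‖

/-- Conjugating the heat flow by a representation operator. -/
theorem heat_conj (π : Perm (Fin 2 × C) →* (H →L[ℝ] H)) (g : Perm (Fin 2 × C))
    {A B : H →L[ℝ] H} (h : π g * A = B * π g) (r : ℝ) :
    π g * heat A r = heat B r * π g := by
  have hd : ∀ t : ℝ, HasDerivAt (fun t : ℝ => heat B (-t) * π g * heat A t) 0 t := by
    intro t
    have h1 := ((hasDerivAt_heat_neg_op B t).mul_const (π g)).mul (hasDerivAt_heat_op A t)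
    refine h1.congr_deriv ?_
    calc heat B (-t) * -B * π g * heat A t + heat B (-t) * π g * (A * heat A t)
        = heat B (-t) * (π g * A - B * π g) * heat A t := by noncomm_ring
      _ = 0 := by rw [h]; simp
  have hconst : ∀ x y : ℝ, heat B (-x) * π g * heat A x = heat B (-y) * π g * heat A y :=
    fun x y => is_const_of_deriv_eq_zero (fun t => (hd t).differentiableAt)
      (fun t => (hd t).deriv) x y
  have h2 := hconst r 0
  simp only [neg_zero, heat_zero, one_mul, mul_one] at h2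
  calc π g * heat A r = (heat B r * heat B (-r)) * π g * heat A r := by
        rw [heat_inv_right, one_mul]
    _ = heat B r * (heat B (-r) * π g * heat A r) := by noncomm_ring
    _ = _ := by rw [h2]

/-- **One layer.** -/
theorem Comp.step (hπ : IsOrth π) (S : Perm (Fin 2 × C)) (hg : Good ρ w) (hρ0 : 0 < ρ)
    (hκ : 540 * ρ ≤ 1) {T : H →L[ℝ] H} (h : Comp π T w) :
    Comp π (T * (π S * Col π)) (nxt S (1 - 540 * ρ) w) := by
  intro v
  set u := Col π v with hu
  set wS : Fin 2 × C → Fin 2 × C → ℝ := fun p q => w (S p) (S q) with hwS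
  have hgS := hg.comp S
  have h1 : ‖(T * (π S * Col π)) v‖ ≤ ‖heat (Lw π w) (-1) (π S u)‖ := h (π S u)
  have hconj : π S * Lw π wS = Lw π w * π S := by
    rw [Lw_conj]
    congr 2
    funext p q
    simp [hwS]
  have h2 : heat (Lw π w) (-1) (π S u) = π S (heat (Lw π wS) (-1) u) := by
    have := congrArg (fun A : H →L[ℝ] H => A u) (heat_conj π S hconj (-1))
    simpa using this.symm
  rw [h2, hπ.norm] at h1
  have h3 := RJ hπ hgS.nonneg hgS.symm hgS.diag hgS.rate hρ0 hκ v
  refine h1.trans (h3.trans ?_)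
  have hL : Lw π (nxt S (1 - 540 * ρ) w) = (1 - 540 * ρ) • Lw π (wbar wS) := Lw_smul π _ _
  have hcomm : Commute (Col π) (Lw π (nxt S (1 - 540 * ρ) w)) := by
    rw [hL]
    exact (Col_comm_Q π hgS.symm hgS.diag).smul_right _
  have e : heat (Lw π (wbar wS)) (-(1 - 540 * ρ)) = heat (Lw π (nxt S (1 - 540 * ρ) w)) (-1) := by
    rw [hL, heat_smul_op]
    congr 1
    ring
  rw [e]
  have h4 : heat (Lw π (nxt S (1 - 540 * ρ) w)) (-1) (Col π v)
      = Col π (heat (Lw π (nxt S (1 - 540 * ρ) w)) (-1) v) := by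
    have := congrArg (fun A : H →L[ℝ] H => A v) (heat_comm hcomm.symm (-1)).eq
    simpa using this
  rw [h4]
  exact Col_norm_le hπ _

/-- The weights on the pairs of one column. -/
noncomputable def w0 (s : ℝ) (p q : Fin 2 × C) : ℝ := if p.2 = q.2 ∧ p ≠ q then s else 0

theorem w0_sum (s : ℝ) (p : Fin 2 × C) : ∑ q, w0 s p q = s := by
  obtain ⟨a, x⟩ := p
  rw [Finset.sum_eq_single ((a + 1, x) : Fin 2 × C)]
  · unfold w0
    rw [if_pos]
    refine ⟨rfl, ?_⟩
    intro h
    have h1 : a = a + 1 := (Prod.ext_iff.mp h).1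
    have h2 : ∀ a : Fin 2, a ≠ a + 1 := by decide
    exact h2 a h1
  · rintro ⟨b, y⟩ _ hq
    unfold w0
    rw [if_neg]
    rintro ⟨h1, h2⟩
    simp only at h1
    subst h1
    have h3 : b ≠ a + 1 := fun e => hq (by rw [e])
    have h4 : a ≠ b := fun e => h2 (by rw [e])
    have h5 : ∀ a b : Fin 2, b ≠ a + 1 → a ≠ b → False := by decide
    exact h5 a b h3 h4
  · simp

theorem w0_good {s : ℝ} (hs : 0 ≤ s) (hsρ : s ≤ ρ) : Good ρ (w0 s : Fin 2 × C → Fin 2 × C → ℝ) where
  nonneg p q := by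
    unfold w0
    split_ifs
    · exact hs
    · exact le_rfl
  symm p q := by
    unfold w0
    by_cases h : p.2 = q.2 ∧ p ≠ q
    · rw [if_pos h, if_pos ⟨h.1.symm, h.2.symm⟩]
    · rw [if_neg h, if_neg]
      exact fun h' => h ⟨h'.1.symm, h'.2.symm⟩
  diag p := by simp [w0]
  rate p := by rw [w0_sum]; exact hsρ

theorem wbar_w0 (s : ℝ) : wbar (w0 s : Fin 2 × C → Fin 2 × C → ℝ) = w0 s := by
  funext p q
  by_cases h : p.2 = q.2
  · rw [wbar_same h]
  · rw [wbar_diff h]
    have h1 : w0 s p q = 0 := by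
      unfold w0
      rw [if_neg]
      exact fun h' => h h'.1
    rw [h1]
    unfold qq
    have h2 : ∀ a b : Fin 2, w0 s ((a, p.2) : Fin 2 × C) (b, q.2) = 0 := by
      intro a b
      unfold w0
      rw [if_neg]
      exact fun h' => h h'.1
    simp only [h2]
    simp

theorem rep_flip_Col (π : Perm (Fin 2 × C) →* (H →L[ℝ] H)) (e : C → Fin 2) (v : H) :
    π (flip e) (Col π v) = Col π v := by
  have := congrArg (fun A : H →L[ℝ] H => A v) (rep_flip_mul_PP π e 0)
  simp only [chi_zero_left, one_smul] at this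
  rw [Col_eq_PP]
  exact this

theorem Lw_w0_Col (π : Perm (Fin 2 × C) →* (H →L[ℝ] H)) (s : ℝ) (v : H) :
    Lw π (w0 s) (Col π v) = 0 := by
  rw [Lw_apply]
  refine Finset.sum_eq_zero fun p _ => Finset.sum_eq_zero fun q _ => ?_
  unfold w0
  split_ifs with h
  · obtain ⟨a, x⟩ := p
    obtain ⟨b, y⟩ := q
    obtain ⟨h1, h2⟩ := h
    simp only at h1
    subst h1
    rw [BB_apply]
    have h3 : a ≠ b := fun e => h2 (by rw [e])
    have h4 : π (swap (a, x) (b, x)) (Col π v) = Col π v := by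
      rcases fin2_cases a with rfl | rfl <;> rcases fin2_cases b with rfl | rfl
      · exact absurd rfl h3
      · rw [← flip_single, rep_flip_Col]
      · rw [swap_comm, ← flip_single, rep_flip_Col]
      · exact absurd rfl h3
    rw [h4]
    simp
  · simp

/-- The base of the recursion. -/
theorem Comp.base (hπ : IsOrth π) (S : Perm (Fin 2 × C)) {s : ℝ} (hs : 0 ≤ s) :
    Comp π (π S * Col π) (w0 s) := by
  intro v
  have hg : Good s (w0 s : Fin 2 × C → Fin 2 × C → ℝ) := w0_good hs le_rfl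
  have hcomm : Commute (Col π) (Lw π (w0 s)) := by
    have := Col_comm_Q π hg.symm hg.diag
    rwa [wbar_w0] at this
  show ‖π S (Col π v)‖ ≤ _
  rw [hπ.norm]
  have h1 : Col π v = heat (Lw π (w0 s)) (-1) (Col π v) :=
    (heat_fix _ _ _ (Lw_w0_Col π s v)).symm
  have h2 : heat (Lw π (w0 s)) (-1) (Col π v) = Col π (heat (Lw π (w0 s)) (-1) v) := by
    have := congrArg (fun A : H →L[ℝ] H => A v) (heat_comm hcomm.symm (-1)).eq
    simpa using this
  rw [h1, h2]
  exact Col_norm_le hπ _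

/-- The sequence of weights. -/
noncomputable def wk (S : Perm (Fin 2 × C)) (c s : ℝ) : ℕ → Fin 2 × C → Fin 2 × C → ℝ
  | 0 => w0 s
  | k + 1 => nxt S c (wk S c s k)

theorem wk_good (S : Perm (Fin 2 × C)) {c s : ℝ} (hc0 : 0 ≤ c) (hc1 : c ≤ 1) (hs : 0 ≤ s)
    (hsρ : s ≤ ρ) (k : ℕ) : Good ρ (wk S c s k) := by
  induction k with
  | zero => exact w0_good hs hsρ
  | succ k ih => exact ih.nxt S hc0 hc1 (hs.trans hsρ)

theorem wk_comp (hπ : IsOrth π) (S : Perm (Fin 2 × C)) (hρ0 : 0 < ρ) (hκ : 540 * ρ ≤ 1) {s : ℝ}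
    (hs : 0 ≤ s) (hsρ : s ≤ ρ) (k : ℕ) :
    Comp π ((π S * Col π) ^ (k + 1)) (wk S (1 - 540 * ρ) s k) := by
  induction k with
  | zero =>
    rw [zero_add, pow_one]
    exact Comp.base hπ S hs
  | succ k ih =>
    rw [pow_succ]
    exact Comp.step hπ S (wk_good S (by linarith) (by linarith) hs hsρ k) hρ0 hκ ih

/-- The heat flow of a positive semidefinite operator is a contraction. -/
theorem heat_contract {A : H →L[ℝ] H} (hp : ∀ u, 0 ≤ ⟪u, A u⟫) {r : ℝ} (hr : 0 ≤ r)
    (z : H) : ‖heat A (-r) z‖ ≤ ‖z‖ := by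
  have hd : ∀ t : ℝ, HasDerivAt (fun t => ‖heat (-A) t z‖ ^ 2)
      (2 * ⟪heat (-A) t z, (-A) (heat (-A) t z)⟫) t := fun t =>
    (heat_hasDerivAt (-A) z t).norm_sq
  have hanti : Antitone (fun t => ‖heat (-A) t z‖ ^ 2) := by
    apply antitone_of_deriv_nonpos
    · exact fun t => (hd t).differentiableAt
    · intro t
      rw [(hd t).deriv]
      have := hp (heat (-A) t z)
      rw [_root_.neg_apply, inner_neg_right]
      linarith
  have h1 := hanti hr
  simp only [heat_zero, one_apply_eq_self] at h1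
  rw [heat_neg_op] at h1
  exact (pow_le_pow_iff_left₀ (norm_nonneg _) (norm_nonneg _) (by norm_num)).mp h1

/-- The transposition Laplacian is a weighted Laplacian. -/
theorem lap_eq_Lw (π : Perm (Fin 2 × C) →* (H →L[ℝ] H)) :
    lap univ π = Lw π (fun _ _ => 1) := by
  unfold lap Lw BB
  simp

theorem BB_comm_lap (π : Perm (Fin 2 × C) →* (H →L[ℝ] H)) (p q : Fin 2 × C) :
    Commute (BB π p q) (lap univ π) := by
  unfold BB
  apply Commute.smul_left
  exact (Commute.one_left _).sub_left (lap_comm univ _ (by simp))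

theorem Lw_comm_lap (π : Perm (Fin 2 × C) →* (H →L[ℝ] H)) (w : Fin 2 × C → Fin 2 × C → ℝ) :
    Commute (Lw π w) (lap univ π) := by
  unfold Lw
  apply Commute.sum_left
  intro p _
  apply Commute.sum_left
  intro q _
  exact (BB_comm_lap π p q).smul_left _

/-- Weights bounded below dominate the transposition Laplacian. -/
theorem heat_le_lap (hπ : IsOrth π) {ε : ℝ}
    (hε : ∀ p q, p ≠ q → ε ≤ w p q) (v : H) :
    ‖heat (Lw π w) (-1) v‖ ≤ ‖heat (lap univ π) (-ε) v‖ := by
  set w' : Fin 2 × C → Fin 2 × C → ℝ := fun p q => if p = q then 0 else w p q - ε with hw'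
  have hw'0 : ∀ p q, 0 ≤ w' p q := by
    intro p q
    simp only [hw']
    split_ifs with h
    · exact le_rfl
    · linarith [hε p q h]
  have hsplit : Lw π w = Lw π w' + ε • lap univ π := by
    rw [lap_eq_Lw, ← Lw_smul, ← Lw_add]
    unfold Lw
    refine Finset.sum_congr rfl fun p _ => Finset.sum_congr rfl fun q _ => ?_
    by_cases h : p = q
    · subst h
      simp [BB_self]
    · simp only [hw', if_neg h]
      congr 1
      ring
  have hcomm : Commute (Lw π w') (ε • lap univ π) := (Lw_comm_lap π w').smul_right _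
  rw [hsplit, heat_add_op hcomm, heat_smul_op]
  have e : (-1 : ℝ) * ε = -ε := by ring
  rw [e]
  show ‖heat (Lw π w') (-1) (heat (lap univ π) (-ε) v)‖ ≤ _
  exact heat_contract (inner_Lw_nonneg hπ hw'0) zero_le_one _

end Vale.Agent.Lib.P162G
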