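import Vale.Agent.Lib.P162G.Core
import Vale.Agent.Lib.P162.Column

/-!
# Sector calculus for a weighted Laplacian on `Fin 2 × C`
-/

namespace Vale.Agent.Lib.P162G

open Equiv Finset NormedSpace
open Vale.Agent.Lib.P162
open scoped RealInnerProductSpace

set_option linter.unusedSectionVars false
set_option linter.unusedDecidableInType false

variable {H : Type*} [NormedAddCommGroup H] [InnerProductSpace ℝ H]
variable {C : Type*} [Fintype C] [DecidableEq C]

/-- Average of the weight over a pair of distinct columns. -/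
noncomputable def qq (w : Fin 2 × C → Fin 2 × C → ℝ) (x y : C) : ℝ :=
  (1 / 4) * ∑ a : Fin 2, ∑ b : Fin 2, w (a, x) (b, y)

/-- The average of the weight over the column flips. -/
noncomputable def wbar (w : Fin 2 × C → Fin 2 × C → ℝ) (p q : Fin 2 × C) : ℝ :=
  if p.2 = q.2 then w p q else qq w p.2 q.2

/-- Fourier coefficients of the weight on a pair of columns. -/
noncomputable def cc (w : Fin 2 × C → Fin 2 × C → ℝ) (x y : C) (d1 d2 : Fin 2) : ℝ :=
  (1 / 4) * ∑ a : Fin 2, ∑ b : Fin 2, (eps (a * d1) * eps (b * d2)) * w (a, x) (b, y)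

variable {w : Fin 2 × C → Fin 2 × C → ℝ}

theorem cc_zero (x y : C) : cc w x y 0 0 = qq w x y := by
  simp [cc, qq]

theorem qq_nonneg (hw : ∀ p q, 0 ≤ w p q) (x y : C) : 0 ≤ qq w x y := by
  unfold qq
  have : 0 ≤ ∑ a : Fin 2, ∑ b : Fin 2, w (a, x) (b, y) :=
    Finset.sum_nonneg fun _ _ => Finset.sum_nonneg fun _ _ => hw _ _
  linarith

theorem qq_symm (hsym : ∀ p q, w p q = w q p) (x y : C) : qq w x y = qq w y x := by
  unfold qq
  rw [Finset.sum_comm]
  congr 1
  exact Finset.sum_congr rfl fun _ _ => Finset.sum_congr rfl fun _ _ => hsym _ _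

theorem cc_abs_le (hw : ∀ p q, 0 ≤ w p q) (x y : C) (d1 d2 : Fin 2) :
    |cc w x y d1 d2| ≤ qq w x y := by
  unfold cc qq
  rw [abs_mul, abs_of_pos (by norm_num : (0 : ℝ) < 1 / 4)]
  apply mul_le_mul_of_nonneg_left _ (by norm_num)
  refine (Finset.abs_sum_le_sum_abs _ _).trans (Finset.sum_le_sum fun a _ => ?_)
  refine (Finset.abs_sum_le_sum_abs _ _).trans (Finset.sum_le_sum fun b _ => ?_)
  rw [abs_mul, abs_mul, eps_abs, eps_abs, one_mul, one_mul, abs_of_nonneg (hw _ _)]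

theorem wbar_nonneg (hw : ∀ p q, 0 ≤ w p q) (p q : Fin 2 × C) : 0 ≤ wbar w p q := by
  unfold wbar
  split_ifs
  · exact hw _ _
  · exact qq_nonneg hw _ _

theorem wbar_symm (hsym : ∀ p q, w p q = w q p) (p q : Fin 2 × C) : wbar w p q = wbar w q p := by
  unfold wbar
  by_cases h : p.2 = q.2
  · rw [if_pos h, if_pos h.symm]
    exact hsym _ _
  · rw [if_neg h, if_neg (Ne.symm h)]
    exact qq_symm hsym _ _

theorem wbar_diag (hd : ∀ p, w p p = 0) (p : Fin 2 × C) : wbar w p p = 0 := by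
  simp [wbar, hd]

/-- Fourier inversion on a pair of columns. -/
theorem w_fourier (x y : C) (a b : Fin 2) :
    w (a, x) (b, y) - qq w x y
      = cc w x y 1 0 * (eps (a * 1) * eps (b * 0)) + cc w x y 0 1 * (eps (a * 0) * eps (b * 1))
        + cc w x y 1 1 * (eps (a * 1) * eps (b * 1)) := by
  unfold cc qq
  simp only [Fin.sum_univ_two, mul_one, mul_zero, eps_zero, eps_one, one_mul]
  rcases fin2_cases a with rfl | rfl <;> rcases fin2_cases b with rfl | rfl <;>
    simp only [eps_zero, eps_one] <;> ring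

theorem wbar_same {p q : Fin 2 × C} (h : p.2 = q.2) : wbar w p q = w p q := by
  unfold wbar
  rw [if_pos h]

theorem wbar_diff {p q : Fin 2 × C} (h : p.2 ≠ q.2) : wbar w p q = qq w p.2 q.2 := by
  unfold wbar
  rw [if_neg h]

/-- The average over flips is invariant under flips. -/
theorem wbar_flip (hsym : ∀ p q, w p q = w q p) (hd : ∀ p, w p p = 0) (c : C → Fin 2)
    (p q : Fin 2 × C) : wbar w (flip c p) (flip c q) = wbar w p q := by
  obtain ⟨a, x⟩ := p
  obtain ⟨b, y⟩ := q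
  by_cases h : x = y
  · subst h
    rw [wbar_same (by simp [flip_apply]), wbar_same (p := (a, x)) (q := (b, x)) rfl]
    simp only [flip_apply]
    have e11 : (1 : Fin 2) + 1 = 0 := by decide
    have e01 : (0 : Fin 2) + 1 = 1 := by decide
    rcases fin2_cases (c x) with h0 | h0 <;> rw [h0]
    · simp
    · rcases fin2_cases a with rfl | rfl <;> rcases fin2_cases b with rfl | rfl
      · simp only [e01]
        rw [hd, hd]
      · simp only [e01, e11]
        exact hsym _ _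
      · simp only [e01, e11]
        exact hsym _ _
      · simp only [e11]
        rw [hd, hd]
  · rw [wbar_diff (by simpa [flip_apply] using h), wbar_diff (by simpa using h)]
    simp only [flip_apply]

/-- The flips commute with the averaged Laplacian. -/
theorem flip_comm_Q (π : Perm (Fin 2 × C) →* (H →L[ℝ] H)) (hsym : ∀ p q, w p q = w q p)
    (hd : ∀ p, w p p = 0) (c : C → Fin 2) : Commute (π (flip c)) (Lw π (wbar w)) :=
  Lw_comm_of_inv π (flip c) fun p q => by
    rw [flip_inv]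
    exact wbar_flip hsym hd c p q

theorem PP_comm_Q (π : Perm (Fin 2 × C) →* (H →L[ℝ] H)) (hsym : ∀ p q, w p q = w q p)
    (hd : ∀ p, w p p = 0) (s : C → Fin 2) : Commute (PP π s) (Lw π (wbar w)) := by
  unfold PP
  apply Commute.smul_left
  apply Commute.sum_left
  intro c _
  apply Commute.smul_left
  exact flip_comm_Q π hsym hd c

theorem Col_comm_Q (π : Perm (Fin 2 × C) →* (H →L[ℝ] H)) (hsym : ∀ p q, w p q = w q p)
    (hd : ∀ p, w p p = 0) : Commute (Col π) (Lw π (wbar w)) := by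
  rw [Col_eq_PP]
  exact PP_comm_Q π hsym hd 0

/-- The rate of the averaged weights. -/
theorem wbar_rate {ρ : ℝ} (hw : ∀ p q, 0 ≤ w p q) (hsym : ∀ p q, w p q = w q p)
    (hd : ∀ p, w p p = 0) (hrate : ∀ p, ∑ q, w p q ≤ ρ) (p : Fin 2 × C) :
    ∑ q, wbar w p q ≤ ρ := by
  obtain ⟨a, x⟩ := p
  -- sum over the other columns
  set Z : Fin 2 → ℝ := fun a' => ∑ y ∈ (univ : Finset C).erase x, ∑ b, w (a', x) (b, y) with hZ
  have e1 : ∀ a' : Fin 2, ∑ q, w (a', x) q = w (a', x) (a' + 1, x) + Z a' := by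
    intro a'
    rw [Fintype.sum_prod_type_right, ← Finset.add_sum_erase _ _ (Finset.mem_univ x)]
    congr 1
    rw [Fin.sum_univ_two]
    rcases fin2_cases a' with rfl | rfl
    · simp [hd]
    · have e11 : (1 : Fin 2) + 1 = 0 := by decide
      simp [hd, e11]
  have e2 : ∑ q, wbar w (a, x) q
      = w (a, x) (a + 1, x) + ∑ y ∈ (univ : Finset C).erase x, 2 * qq w x y := by
    rw [Fintype.sum_prod_type_right, ← Finset.add_sum_erase _ _ (Finset.mem_univ x)]
    congr 1
    · simp only [wbar, if_true]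
      rw [Fin.sum_univ_two]
      rcases fin2_cases a with rfl | rfl
      · simp [hd]
      · have e11 : (1 : Fin 2) + 1 = 0 := by decide
        simp [hd, e11]
    · refine Finset.sum_congr rfl fun y hy => ?_
      have hne : x ≠ y := (Finset.ne_of_mem_erase hy).symm
      simp only [wbar, if_neg hne, Fin.sum_univ_two]
      ring
  have e3 : ∑ y ∈ (univ : Finset C).erase x, 2 * qq w x y = (Z 0 + Z 1) / 2 := by
    simp only [hZ]
    rw [← Finset.sum_add_distrib, Finset.sum_div]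
    refine Finset.sum_congr rfl fun y _ => ?_
    simp only [qq, Fin.sum_univ_two]
    ring
  have e4 : w ((0 : Fin 2), x) ((0 : Fin 2) + 1, x) = w (a, x) (a + 1, x) := by
    rcases fin2_cases a with rfl | rfl
    · rfl
    · have e11 : (1 : Fin 2) + 1 = 0 := by decide
      rw [e11]
      exact hsym _ _
  have e5 : w ((1 : Fin 2), x) ((1 : Fin 2) + 1, x) = w (a, x) (a + 1, x) := by
    rcases fin2_cases a with rfl | rfl
    · have e11 : (1 : Fin 2) + 1 = 0 := by decide
      rw [e11]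
      exact hsym _ _
    · rfl
  have h0 := hrate (0, x)
  have h1 := hrate (1, x)
  rw [e1] at h0 h1
  rw [e2, e3]
  linarith

/-- The rate of the average on a column. -/
theorem sum_qq_le {ρ : ℝ} (hw : ∀ p q, 0 ≤ w p q) (hrate : ∀ p, ∑ q, w p q ≤ ρ) (x : C) :
    ∑ y ∈ (univ : Finset C).erase x, qq w x y ≤ ρ / 2 := by
  have h : ∀ a : Fin 2, ∑ y ∈ (univ : Finset C).erase x, ∑ b, w (a, x) (b, y) ≤ ρ := by
    intro a
    refine le_trans ?_ (hrate (a, x))
    rw [Fintype.sum_prod_type_right]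
    exact Finset.sum_le_sum_of_subset_of_nonneg (Finset.erase_subset _ _) fun y _ _ =>
      Finset.sum_nonneg fun b _ => hw _ _
  have e : ∑ y ∈ (univ : Finset C).erase x, qq w x y
      = (1 / 4) * (∑ y ∈ (univ : Finset C).erase x, ∑ b, w (0, x) (b, y)
        + ∑ y ∈ (univ : Finset C).erase x, ∑ b, w (1, x) (b, y)) := by
    rw [← Finset.sum_add_distrib, Finset.mul_sum]
    refine Finset.sum_congr rfl fun y _ => ?_
    simp only [qq, Fin.sum_univ_two]
  rw [e]
  linarith [h 0, h 1]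

section ops

variable [CompleteSpace H]
variable {π : Perm (Fin 2 × C) →* (H →L[ℝ] H)}

/-- The conjugated pair operators with a character. -/
noncomputable def TT (π : Perm (Fin 2 × C) →* (H →L[ℝ] H)) (Q : H →L[ℝ] H) (a : ℝ) (x y : C)
    (d1 d2 : Fin 2) : H →L[ℝ] H :=
  ∑ b : Fin 2, ∑ b' : Fin 2, (eps (b * d1) * eps (b' * d2)) • Th Q (BB π (b, x) (b', y)) a

/-- The local energy. -/
noncomputable def eX (π : Perm (Fin 2 × C) →* (H →L[ℝ] H)) (Q : H →L[ℝ] H) (a : ℝ) (x y : C)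
    (z : H) : ℝ :=
  ∑ b : Fin 2, ∑ b' : Fin 2, ‖Th Q (BB π (b, x) (b', y)) a z‖ ^ 2

theorem Th_conj {Q G : H →L[ℝ] H} (hG : Commute G Q) (B B' : H →L[ℝ] H) (h : G * B = B' * G)
    (a : ℝ) : G * Th Q B a = Th Q B' a * G := by
  unfold Th
  have h1 : G * heat Q (-a) = heat Q (-a) * G := (heat_comm hG.symm (-a)).eq.symm
  have h2 : G * heat Q a = heat Q a * G := (heat_comm hG.symm a).eq.symm
  calc G * (heat Q (-a) * B * heat Q a)
      = (G * heat Q (-a)) * B * heat Q a := by noncomm_ring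
    _ = heat Q (-a) * (G * B) * heat Q a := by rw [h1]; noncomm_ring
    _ = heat Q (-a) * B' * (G * heat Q a) := by rw [h]; noncomm_ring
    _ = _ := by rw [h2]; noncomm_ring

/-- Conjugation of the pair operators by flips. -/
theorem TT_conj {Q : H →L[ℝ] H} (hQ : ∀ c : C → Fin 2, Commute (π (flip c)) Q) (a : ℝ) (x y : C)
    (d1 d2 : Fin 2) (c : C → Fin 2) :
    π (flip c) * TT π Q a x y d1 d2
      = (eps (c x * d1) * eps (c y * d2)) • (TT π Q a x y d1 d2 * π (flip c)) := by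
  unfold TT
  rw [Finset.mul_sum, Finset.sum_mul, Finset.smul_sum]
  conv_rhs => rw [← Equiv.sum_comp (Equiv.addRight (c x))]
  refine Finset.sum_congr rfl fun b _ => ?_
  rw [Finset.mul_sum, Finset.sum_mul, Finset.smul_sum]
  simp only [Equiv.coe_addRight]
  conv_rhs => rw [← Equiv.sum_comp (Equiv.addRight (c y))]
  refine Finset.sum_congr rfl fun b' _ => ?_
  simp only [Equiv.coe_addRight]
  rw [mul_smul_comm, smul_mul_assoc, smul_smul]
  have h1 := Th_conj (hQ c) (BB π (b, x) (b', y)) (BB π (b + c x, x) (b' + c y, y))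
    (by rw [BB_conj]; simp) a
  rw [h1]
  congr 1
  rw [add_mul, add_mul, eps_add, eps_add]
  have h2 := eps_mul_self (c x * d1)
  have h3 := eps_mul_self (c y * d2)
  calc eps (b * d1) * eps (b' * d2)
      = (eps (c x * d1) * eps (c x * d1)) * (eps (c y * d2) * eps (c y * d2))
          * (eps (b * d1) * eps (b' * d2)) := by rw [h2, h3]; ring
    _ = _ := by ring

/-- The sector shift of a pair of columns. -/
def dl (x y : C) (d1 d2 : Fin 2) : C → Fin 2 := Pi.single x d1 + Pi.single y d2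

theorem chi_single_left (x : C) (d : Fin 2) (c : C → Fin 2) :
    chi (Pi.single x d) c = eps (d * c x) := by
  unfold chi
  rw [Finset.prod_eq_single x]
  · simp
  · intro z _ hz
    simp [Pi.single_eq_of_ne hz]
  · simp

theorem chi_dl (x y : C) (d1 d2 : Fin 2) (c : C → Fin 2) :
    chi (dl x y d1 d2) c = eps (c x * d1) * eps (c y * d2) := by
  unfold dl
  rw [chi_add_left, chi_single_left, chi_single_left, mul_comm d1, mul_comm d2]

theorem PP_TT {Q : H →L[ℝ] H} (hQ : ∀ c : C → Fin 2, Commute (π (flip c)) Q) (a : ℝ) (x y : C)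
    (d1 d2 : Fin 2) (s : C → Fin 2) :
    PP π s * TT π Q a x y d1 d2 = TT π Q a x y d1 d2 * PP π (s + dl x y d1 d2) := by
  unfold PP
  rw [smul_mul_assoc, mul_smul_comm]
  congr 1
  rw [Finset.sum_mul, Finset.mul_sum]
  refine Finset.sum_congr rfl fun c _ => ?_
  rw [smul_mul_assoc, TT_conj hQ, chi_add_left, chi_dl, mul_smul_comm, smul_smul]

theorem PP_TT_apply {Q : H →L[ℝ] H} (hQ : ∀ c : C → Fin 2, Commute (π (flip c)) Q) (a : ℝ)
    (x y : C) (d1 d2 : Fin 2) (s : C → Fin 2) (u : H) :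
    PP π s (TT π Q a x y d1 d2 u) = TT π Q a x y d1 d2 (PP π (s + dl x y d1 d2) u) := by
  rw [← mul_apply_eq_comp, PP_TT hQ, mul_apply_eq_comp]

/-- The adjoint of `Th`. -/
theorem Th_adj {Q B : H →L[ℝ] H} (hQ : Symm Q) (hB : ∀ u v, ⟪B u, v⟫ = ⟪u, B v⟫) (a : ℝ) (u v : H) :
    ⟪Th Q B a u, v⟫ = ⟪u, Th Q B (-a) v⟫ := by
  unfold Th
  simp only [mul_apply_eq_comp, neg_neg]
  rw [heat_symm hQ, hB, heat_symm hQ]

theorem TT_adj (hπ : IsOrth π) {Q : H →L[ℝ] H} (hQ : Symm Q) (a : ℝ) (x y : C) (d1 d2 : Fin 2)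
    (u v : H) : ⟪TT π Q a x y d1 d2 u, v⟫ = ⟪u, TT π Q (-a) x y d1 d2 v⟫ := by
  unfold TT
  simp only [_root_.sum_apply, smul_apply]
  rw [sum_inner, inner_sum]
  refine Finset.sum_congr rfl fun b _ => ?_
  rw [sum_inner, inner_sum]
  refine Finset.sum_congr rfl fun b' _ => ?_
  rw [inner_smul_left, inner_smul_right, Th_adj hQ (BB_symm hπ _ _)]
  simp

theorem TT_sq_le (Q : H →L[ℝ] H) (a : ℝ) (x y : C) (d1 d2 : Fin 2) (z : H) :
    ‖TT π Q a x y d1 d2 z‖ ^ 2 ≤ 4 * eX π Q a x y z := by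
  unfold TT eX
  simp only [Fin.sum_univ_two, add_apply, smul_apply]
  set A := Th Q (BB π (0, x) (0, y)) a z
  set B := Th Q (BB π (0, x) (1, y)) a z
  set D := Th Q (BB π (1, x) (0, y)) a z
  set E := Th Q (BB π (1, x) (1, y)) a z
  set k1 := eps (0 * d1) * eps (0 * d2)
  set k2 := eps (0 * d1) * eps (1 * d2)
  set k3 := eps (1 * d1) * eps (0 * d2)
  set k4 := eps (1 * d1) * eps (1 * d2)
  have hk : ∀ i j : Fin 2, ‖(eps i * eps j : ℝ)‖ = 1 := by
    intro i j
    rw [Real.norm_eq_abs, abs_mul, eps_abs, eps_abs, one_mul]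
  have h1 : ‖k1 • A + k2 • B + (k3 • D + k4 • E)‖ ≤ ‖A‖ + ‖B‖ + (‖D‖ + ‖E‖) := by
    refine (norm_add_le _ _).trans (add_le_add ((norm_add_le _ _).trans ?_) ((norm_add_le _ _).trans ?_))
    · rw [norm_smul, norm_smul, hk, hk, one_mul, one_mul]
    · rw [norm_smul, norm_smul, hk, hk, one_mul, one_mul]
  have h0 := norm_nonneg (k1 • A + k2 • B + (k3 • D + k4 • E))
  have h2 : ‖k1 • A + k2 • B + (k3 • D + k4 • E)‖ ^ 2 ≤ (‖A‖ + ‖B‖ + (‖D‖ + ‖E‖)) ^ 2 :=
    pow_le_pow_left₀ h0 h1 2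
  nlinarith [sq_nonneg (‖A‖ - ‖B‖), sq_nonneg (‖A‖ - ‖D‖), sq_nonneg (‖A‖ - ‖E‖),
    sq_nonneg (‖B‖ - ‖D‖), sq_nonneg (‖B‖ - ‖E‖), sq_nonneg (‖D‖ - ‖E‖)]

/-- The operator `Th Q (L - Q)` as a sum over pairs of columns. -/
theorem Rt_eq (hd : ∀ p, w p p = 0) (a : ℝ) (Q : H →L[ℝ] H) (hQ : Q = Lw π (wbar w)) :
    Th Q (Lw π w - Q) a = ∑ x, ∑ y ∈ (univ : Finset C).erase x,
      (cc w x y 1 0 • TT π Q a x y 1 0 + cc w x y 0 1 • TT π Q a x y 0 1
        + cc w x y 1 1 • TT π Q a x y 1 1) := by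
  have h1 : Lw π w - Q = ∑ x, ∑ y ∈ (univ : Finset C).erase x, ∑ b : Fin 2, ∑ b' : Fin 2,
      (w (b, x) (b', y) - qq w x y) • BB π (b, x) (b', y) := by
    rw [hQ, ← Lw_sub]
    unfold Lw
    rw [sum_prod_prod]
    refine Finset.sum_congr rfl fun x _ => ?_
    rw [← Finset.add_sum_erase _ _ (Finset.mem_univ x)]
    have h2 : ∑ b : Fin 2, ∑ b' : Fin 2, (w (b, x) (b', x) - wbar w (b, x) (b', x)) •
        BB π (b, x) (b', x) = 0 := by
      simp [wbar]
    rw [h2, zero_add]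
    refine Finset.sum_congr rfl fun y hy => ?_
    have hne : x ≠ y := (Finset.ne_of_mem_erase hy).symm
    refine Finset.sum_congr rfl fun b _ => Finset.sum_congr rfl fun b' _ => ?_
    simp only [wbar, if_neg hne]
  rw [h1, Th_sum]
  refine Finset.sum_congr rfl fun x _ => ?_
  rw [Th_sum]
  refine Finset.sum_congr rfl fun y _ => ?_
  rw [Th_sum]
  unfold TT
  simp only [Finset.smul_sum]
  rw [← Finset.sum_add_distrib, ← Finset.sum_add_distrib]
  refine Finset.sum_congr rfl fun b _ => ?_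
  rw [Th_sum, ← Finset.sum_add_distrib, ← Finset.sum_add_distrib]
  refine Finset.sum_congr rfl fun b' _ => ?_
  rw [Th_smul, w_fourier, smul_smul, smul_smul, smul_smul, ← add_smul, ← add_smul]

end ops

end Vale.Agent.Lib.P162G
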