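import Vale.Agent.Lib.P162G.GLink

/-!
# Lower bounds for the weights along the layers: a two point chain modulo `2 * m`
-/

namespace Vale.Agent.Lib.P162G

open Equiv Finset
open Vale.Agent.Lib.P162

variable {m : ℕ}

/-- The position of a point, modulo `2 * m`. -/
noncomputable def pos (p : Fin 2 × Fin m) : ZMod (2 * m) :=
  (((ee m p : Fin (2 * m)) : ℕ) : ZMod (2 * m))

theorem two_m_zero : (2 : ZMod (2 * m)) * (m : ZMod (2 * m)) = 0 := by
  have := ZMod.natCast_self (2 * m)
  push_cast at this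
  exact this

theorem neg_m : -(m : ZMod (2 * m)) = m := by
  have h := two_m_zero (m := m)
  linear_combination -h

theorem pos_mk (a : Fin 2) (x : Fin m) :
    pos (a, x) = ((x : ℕ) : ZMod (2 * m)) + (m : ZMod (2 * m)) * ((a : ℕ) : ZMod (2 * m)) := by
  unfold pos
  rw [ee_val]
  push_cast
  rfl

theorem pos_inj {p q : Fin 2 × Fin m} (h : pos p = pos q) : p = q := by
  unfold pos at h
  rw [ZMod.natCast_eq_natCast_iff'] at h
  have h1 := (ee m p).2
  have h2 := (ee m q).2
  rw [Nat.mod_eq_of_lt h1, Nat.mod_eq_of_lt h2] at h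
  exact (ee m).injective (Fin.ext h)

theorem pos_SS (a : Fin 2) (x : Fin m) :
    pos (SS m (a, x)) = 2 * ((x : ℕ) : ZMod (2 * m)) + ((a : ℕ) : ZMod (2 * m)) := by
  unfold pos
  rw [ee_SS_val]
  push_cast
  rfl

theorem two_pos (a : Fin 2) (x : Fin m) :
    2 * pos (a, x) = 2 * ((x : ℕ) : ZMod (2 * m)) := by
  rw [pos_mk]
  have h := two_m_zero (m := m)
  linear_combination ((a : ℕ) : ZMod (2 * m)) * h

theorem pos_add_m (b : Fin 2) (y : Fin m) : pos (b + 1, y) = pos (b, y) + (m : ZMod (2 * m)) := by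
  rw [pos_mk, pos_mk]
  have h := two_m_zero (m := m)
  rcases fin2_cases b with rfl | rfl
  · simp
  · have e : (1 : Fin 2) + 1 = 0 := by decide
    rw [e]
    simp
    linear_combination -h

theorem pos_same {a b : Fin 2} (h : a ≠ b) (x : Fin m) :
    pos (a, x) - pos (b, x) = (m : ZMod (2 * m)) := by
  rw [pos_mk, pos_mk]
  have h2 := neg_m (m := m)
  rcases fin2_cases a with rfl | rfl <;> rcases fin2_cases b with rfl | rfl
  · exact absurd rfl h
  · simp
    exact h2
  · simp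
  · exact absurd rfl h

theorem pos_diff_ne {a b : Fin 2} {x y : Fin m} (h : x ≠ y) :
    pos (a, x) - pos (b, y) ≠ (m : ZMod (2 * m)) := by
  intro e
  have h1 : pos (a, x) = pos (b + 1, y) := by
    rw [pos_add_m, ← e]
    ring
  have h2 := pos_inj h1
  exact h (Prod.ext_iff.mp h2).2

/-- The averaging operator of the chain. -/
noncomputable def phi (g : ZMod (2 * m) → ℝ) (d : ZMod (2 * m)) : ℝ :=
  (g (2 * d - 1) + 2 * g (2 * d) + g (2 * d + 1)) / 4

/-- A lower bound of the weights by a function of the difference of the positions. -/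
def Lower (w : Fin 2 × Fin m → Fin 2 × Fin m → ℝ) (A : ℝ) (g : ZMod (2 * m) → ℝ) : Prop :=
  ∀ p q, p ≠ q → A * g (pos p - pos q) ≤ w p q

theorem lower_step {w : Fin 2 × Fin m → Fin 2 × Fin m → ℝ} {A c : ℝ} {g g' : ZMod (2 * m) → ℝ}
    (hA : 0 ≤ A) (hc : 0 ≤ c) (hl : Lower w A g)
    (h1 : ∀ d, d ≠ 0 → d ≠ (m : ZMod (2 * m)) → g' d ≤ phi g d)
    (h2 : g' (m : ZMod (2 * m)) ≤ g 1) (h3 : g' (m : ZMod (2 * m)) ≤ g (-1)) :
    Lower (nxt (SS m) c w) (c * A) g' := by
  rintro ⟨a, x⟩ ⟨b, y⟩ hne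
  unfold nxt
  rw [mul_assoc]
  apply mul_le_mul_of_nonneg_left _ hc
  by_cases hxy : x = y
  · subst hxy
    have hab : a ≠ b := fun e => hne (by rw [e])
    rw [wbar_same (p := (a, x)) (q := (b, x)) rfl, pos_same hab]
    have h4 := hl (SS m (a, x)) (SS m (b, x)) (fun e => hne ((SS m).injective e))
    rw [pos_SS, pos_SS] at h4
    refine le_trans ?_ h4
    apply mul_le_mul_of_nonneg_left _ hA
    rcases fin2_cases a with rfl | rfl <;> rcases fin2_cases b with rfl | rfl
    · exact absurd rfl hab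
    · simpa using h3
    · simpa using h2
    · exact absurd rfl hab
  · rw [wbar_diff (p := (a, x)) (q := (b, y)) hxy]
    set d := pos (a, x) - pos (b, y) with hd
    have hd0 : d ≠ 0 := fun e => hne (pos_inj (sub_eq_zero.mp e))
    have hdm : d ≠ (m : ZMod (2 * m)) := pos_diff_ne hxy
    have h5 : A * g' d ≤ A * phi g d := mul_le_mul_of_nonneg_left (h1 d hd0 hdm) hA
    refine h5.trans ?_
    have e2d : 2 * d = 2 * ((x : ℕ) : ZMod (2 * m)) - 2 * ((y : ℕ) : ZMod (2 * m)) := by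
      rw [hd, mul_sub, two_pos, two_pos]
    have hne2 : ∀ a' b' : Fin 2, (a', x) ≠ (b', y) := fun a' b' e => hxy (Prod.ext_iff.mp e).2
    have hterm : ∀ a' b' : Fin 2, A * g (2 * d + ((a' : ℕ) : ZMod (2 * m)) - ((b' : ℕ) : ZMod (2 * m)))
        ≤ w (SS m (a', x)) (SS m (b', y)) := by
      intro a' b'
      have h6 := hl (SS m (a', x)) (SS m (b', y)) (fun e => hne2 a' b' ((SS m).injective e))
      rw [pos_SS, pos_SS] at h6
      have e3 : 2 * ((x : ℕ) : ZMod (2 * m)) + ((a' : ℕ) : ZMod (2 * m))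
          - (2 * ((y : ℕ) : ZMod (2 * m)) + ((b' : ℕ) : ZMod (2 * m)))
          = 2 * d + ((a' : ℕ) : ZMod (2 * m)) - ((b' : ℕ) : ZMod (2 * m)) := by
        rw [e2d]
        ring
      rwa [e3] at h6
    have t00 := hterm 0 0
    have t01 := hterm 0 1
    have t10 := hterm 1 0
    have t11 := hterm 1 1
    simp only [Fin.val_zero, Fin.val_one, Nat.cast_zero, Nat.cast_one, add_zero, sub_zero] at t00 t01 t10 t11
    have e4 : 2 * d + 1 - 1 = 2 * d := by ring
    rw [e4] at t11
    unfold qq phi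
    simp only [Fin.sum_univ_two]
    have e5 : A * ((g (2 * d - 1) + 2 * g (2 * d) + g (2 * d + 1)) / 4)
        = 1 / 4 * (A * g (2 * d) + A * g (2 * d - 1) + (A * g (2 * d + 1) + A * g (2 * d))) := by
      ring
    rw [e5]
    apply mul_le_mul_of_nonneg_left _ (by norm_num)
    exact add_le_add (add_le_add t00 t01) (add_le_add t10 t11)

/-- The number of pairs hitting `m`. -/
noncomputable def SSum (m k : ℕ) (d : ZMod (2 * m)) : ℝ :=
  ∑ B ∈ range (2 ^ k), ∑ B' ∈ range (2 ^ k),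
    if (2 : ZMod (2 * m)) ^ k * d + (B : ZMod (2 * m)) - (B' : ZMod (2 * m)) = (m : ZMod (2 * m))
    then (1 : ℝ) else 0

/-- The free two point chain, in closed form. -/
noncomputable def gg (m k : ℕ) (d : ZMod (2 * m)) : ℝ := (1 / 4 ^ k) * SSum m k d

theorem double_split (F : ℕ → ℕ → ℝ) (N : ℕ) :
    ∑ B ∈ range (N + N), ∑ B' ∈ range (N + N), F B B'
      = ∑ B ∈ range N, ∑ B' ∈ range N, F B B' + ∑ B ∈ range N, ∑ B' ∈ range N, F B (N + B')
        + (∑ B ∈ range N, ∑ B' ∈ range N, F (N + B) B'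
          + ∑ B ∈ range N, ∑ B' ∈ range N, F (N + B) (N + B')) := by
  rw [Finset.sum_range_add]
  congr 1
  · simp_rw [Finset.sum_range_add]
    rw [Finset.sum_add_distrib]
  · simp_rw [Finset.sum_range_add]
    rw [Finset.sum_add_distrib]

theorem SSum_succ (k : ℕ) (d : ZMod (2 * m)) :
    SSum m (k + 1) d = SSum m k (2 * d) + SSum m k (2 * d - 1)
      + (SSum m k (2 * d + 1) + SSum m k (2 * d)) := by
  unfold SSum
  have e : (2 : ℕ) ^ (k + 1) = 2 ^ k + 2 ^ k := by rw [pow_succ]; ring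
  rw [e, double_split]
  congr 1
  · congr 1
    · refine Finset.sum_congr rfl fun B _ => Finset.sum_congr rfl fun B' _ => ?_
      congr 1
      rw [eq_iff_iff]
      have : (2 : ZMod (2 * m)) ^ (k + 1) * d + (B : ZMod (2 * m)) - (B' : ZMod (2 * m))
          = (2 : ZMod (2 * m)) ^ k * (2 * d) + (B : ZMod (2 * m)) - (B' : ZMod (2 * m)) := by
        ring
      rw [this]
    · refine Finset.sum_congr rfl fun B _ => Finset.sum_congr rfl fun B' _ => ?_
      congr 1
      rw [eq_iff_iff]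
      have : (2 : ZMod (2 * m)) ^ (k + 1) * d + (B : ZMod (2 * m))
            - ((2 ^ k + B' : ℕ) : ZMod (2 * m))
          = (2 : ZMod (2 * m)) ^ k * (2 * d - 1) + (B : ZMod (2 * m)) - (B' : ZMod (2 * m)) := by
        push_cast
        ring
      rw [this]
  · congr 1
    · refine Finset.sum_congr rfl fun B _ => Finset.sum_congr rfl fun B' _ => ?_
      congr 1
      rw [eq_iff_iff]
      have : (2 : ZMod (2 * m)) ^ (k + 1) * d + ((2 ^ k + B : ℕ) : ZMod (2 * m))
            - (B' : ZMod (2 * m))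
          = (2 : ZMod (2 * m)) ^ k * (2 * d + 1) + (B : ZMod (2 * m)) - (B' : ZMod (2 * m)) := by
        push_cast
        ring
      rw [this]
    · refine Finset.sum_congr rfl fun B _ => Finset.sum_congr rfl fun B' _ => ?_
      congr 1
      rw [eq_iff_iff]
      have : (2 : ZMod (2 * m)) ^ (k + 1) * d + ((2 ^ k + B : ℕ) : ZMod (2 * m))
            - ((2 ^ k + B' : ℕ) : ZMod (2 * m))
          = (2 : ZMod (2 * m)) ^ k * (2 * d) + (B : ZMod (2 * m)) - (B' : ZMod (2 * m)) := by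
        push_cast
        ring
      rw [this]

theorem gg_succ (k : ℕ) (d : ZMod (2 * m)) : gg m (k + 1) d = phi (gg m k) d := by
  unfold gg phi
  rw [SSum_succ, pow_succ]
  field_simp
  ring

theorem SSum_nonneg (k : ℕ) (d : ZMod (2 * m)) : 0 ≤ SSum m k d :=
  Finset.sum_nonneg fun _ _ => Finset.sum_nonneg fun _ _ => by
    split_ifs
    · exact zero_le_one
    · exact le_rfl

theorem gg_nonneg (k : ℕ) (d : ZMod (2 * m)) : 0 ≤ gg m k d :=
  mul_nonneg (by positivity) (SSum_nonneg k d)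

theorem gg_lower (hm : 0 < m) {k : ℕ} (hk : 2 * m ≤ 2 ^ k) (d : ZMod (2 * m)) :
    1 / 2 ^ k ≤ gg m k d := by
  haveI : NeZero (2 * m) := ⟨by omega⟩
  have h1 : ((2 : ℝ) ^ k) ≤ SSum m k d := by
    unfold SSum
    rw [Finset.sum_comm]
    have h2 : ∀ B' ∈ range (2 ^ k), (1 : ℝ) ≤ ∑ B ∈ range (2 ^ k),
        if (2 : ZMod (2 * m)) ^ k * d + (B : ZMod (2 * m)) - (B' : ZMod (2 * m)) = (m : ZMod (2 * m))
        then (1 : ℝ) else 0 := by
      intro B' _
      set b := ((m : ZMod (2 * m)) + (B' : ZMod (2 * m)) - (2 : ZMod (2 * m)) ^ k * d) with hb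
      have h3 : b.val < 2 ^ k := lt_of_lt_of_le (ZMod.val_lt b) hk
      have h4 : (1 : ℝ) = if (2 : ZMod (2 * m)) ^ k * d + (b.val : ZMod (2 * m))
          - (B' : ZMod (2 * m)) = (m : ZMod (2 * m)) then (1 : ℝ) else 0 := by
        rw [if_pos]
        rw [ZMod.natCast_zmod_val, hb]
        ring
      refine h4.le.trans ?_
      exact Finset.single_le_sum (f := fun B : ℕ => if (2 : ZMod (2 * m)) ^ k * d
          + (B : ZMod (2 * m)) - (B' : ZMod (2 * m)) = (m : ZMod (2 * m)) then (1 : ℝ) else 0)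
        (fun B _ => by
          show (0 : ℝ) ≤ _
          split_ifs
          · exact zero_le_one
          · exact le_rfl)
        (Finset.mem_range.mpr h3)
    have h5 := Finset.sum_le_sum h2
    simp only [Finset.sum_const, Finset.card_range, nsmul_eq_mul, mul_one] at h5
    push_cast at h5
    exact h5
  unfold gg
  have e : (1 : ℝ) / 2 ^ k = 1 / 4 ^ k * 2 ^ k := by
    have : (4 : ℝ) ^ k = 2 ^ k * 2 ^ k := by
      rw [← mul_pow]
      norm_num
    rw [this]
    field_simp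
  rw [e]
  exact mul_le_mul_of_nonneg_left h1 (by positivity)

theorem gg_zero {k : ℕ} (hk : 2 ^ k ≤ m) : gg m k 0 = 0 := by
  unfold gg SSum
  have h : ∀ B ∈ range (2 ^ k), ∀ B' ∈ range (2 ^ k),
      ((2 : ZMod (2 * m)) ^ k * 0 + (B : ZMod (2 * m)) - (B' : ZMod (2 * m)) = (m : ZMod (2 * m)))
        → False := by
    intro B hB B' hB' e
    have hB1 := Finset.mem_range.mp hB
    have hB2 := Finset.mem_range.mp hB'
    have e2 : ((B : ℕ) : ZMod (2 * m)) = ((m + B' : ℕ) : ZMod (2 * m)) := by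
      push_cast
      linear_combination e
    rw [ZMod.natCast_eq_natCast_iff'] at e2
    rw [Nat.mod_eq_of_lt (by omega), Nat.mod_eq_of_lt (by omega)] at e2
    omega
  rw [Finset.sum_eq_zero, mul_zero]
  intro B hB
  refine Finset.sum_eq_zero fun B' hB' => ?_
  rw [if_neg (h B hB B' hB')]

theorem gg_symm (k : ℕ) (d : ZMod (2 * m)) : gg m k (-d) = gg m k d := by
  unfold gg SSum
  congr 1
  rw [Finset.sum_comm]
  refine Finset.sum_congr rfl fun B _ => Finset.sum_congr rfl fun B' _ => ?_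
  congr 1
  rw [eq_iff_iff]
  constructor
  · intro e
    rw [← neg_m]
    linear_combination -e
  · intro e
    rw [← neg_m, ← e]
    ring

theorem gg_m_le {k : ℕ} (hk : 2 ^ k ≤ m) :
    gg m (k + 1) (m : ZMod (2 * m)) ≤ gg m k 1 := by
  rw [gg_succ]
  unfold phi
  have h := two_m_zero (m := m)
  rw [h]
  have e : gg m k (0 - 1) = gg m k 1 := by
    rw [zero_sub, gg_symm]
  have e2 : gg m k (0 + 1) = gg m k 1 := by rw [zero_add]
  rw [e, e2, gg_zero hk]
  have := gg_nonneg (m := m) k 1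
  linarith

theorem lower_base {s : ℝ} (hs : 0 ≤ s) : Lower (w0 s) s (gg m 0) := by
  rintro ⟨a, x⟩ ⟨b, y⟩ hne
  have e : ∀ d : ZMod (2 * m), gg m 0 d = if d = (m : ZMod (2 * m)) then 1 else 0 := by
    intro d
    unfold gg SSum
    simp only [pow_zero, Finset.range_one, Finset.sum_singleton, Nat.cast_zero, one_mul, add_zero,
      sub_zero, one_div, inv_one]
  rw [e]
  by_cases hxy : x = y
  · subst hxy
    have hab : a ≠ b := fun e => hne (by rw [e])
    rw [pos_same hab, if_pos rfl]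
    unfold w0
    rw [if_pos ⟨rfl, hne⟩, mul_one]
  · rw [if_neg (pos_diff_ne hxy), mul_zero]
    unfold w0
    rw [if_neg]
    exact fun h => hxy h.1

theorem lower_stage1 {c s : ℝ} (hc : 0 ≤ c) (hs : 0 ≤ s) (k : ℕ) (hk : ∀ j < k, 2 ^ j ≤ m) :
    Lower (wk (SS m) c s k) (c ^ k * s) (gg m k) := by
  induction k with
  | zero =>
    rw [pow_zero, one_mul]
    exact lower_base hs
  | succ k ih =>
    have h1 := ih fun j hj => hk j (by omega)
    have h2 := lower_step (c := c) (g' := gg m (k + 1)) (by positivity) hc h1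
      (fun d _ _ => (gg_succ k d).le) (gg_m_le (hk k (by omega)))
      (by
        rw [gg_symm]
        exact gg_m_le (hk k (by omega)))
    have e : c ^ (k + 1) * s = c * (c ^ k * s) := by ring
    rw [e]
    exact h2

theorem lower_stage2 {c s : ℝ} (hc : 0 ≤ c) (hs : 0 ≤ s) (k : ℕ) (hk : ∀ j < k, 2 ^ j ≤ m) :
    Lower (wk (SS m) c s (k + 1)) (c ^ (k + 1) * s)
      (fun d => if d = (m : ZMod (2 * m)) then 0 else gg m (k + 1) d) := by
  have h1 := lower_stage1 hc hs k hk
  have h2 := lower_step (c := c)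
    (g' := fun d => if d = (m : ZMod (2 * m)) then 0 else gg m (k + 1) d) (by positivity) hc h1
    (fun d _ hd => by
      simp only [if_neg hd]
      exact (gg_succ k d).le)
    (by
      simp only [if_true]
      exact gg_nonneg _ _)
    (by
      simp only [if_true]
      exact gg_nonneg _ _)
  have e : c ^ (k + 1) * s = c * (c ^ k * s) := by ring
  rw [e]
  exact h2

theorem one_ne_m (hm : 2 ≤ m) : (1 : ZMod (2 * m)) ≠ (m : ZMod (2 * m)) := by
  intro e
  have e2 : ((1 : ℕ) : ZMod (2 * m)) = ((m : ℕ) : ZMod (2 * m)) := by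
    push_cast
    exact e
  rw [ZMod.natCast_eq_natCast_iff'] at e2
  rw [Nat.mod_eq_of_lt (by omega), Nat.mod_eq_of_lt (by omega)] at e2
  omega

theorem neg_one_ne_m (hm : 2 ≤ m) : (-1 : ZMod (2 * m)) ≠ (m : ZMod (2 * m)) := by
  intro e
  apply one_ne_m hm
  have h := neg_m (m := m)
  rw [← h, ← e]
  ring

theorem one_ne_zero' (hm : 1 ≤ m) : (1 : ZMod (2 * m)) ≠ 0 := by
  intro e
  have e2 : ((1 : ℕ) : ZMod (2 * m)) = ((0 : ℕ) : ZMod (2 * m)) := by
    push_cast
    exact e
  rw [ZMod.natCast_eq_natCast_iff'] at e2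
  rw [Nat.mod_eq_of_lt (by omega), Nat.mod_eq_of_lt (by omega)] at e2
  omega

theorem lower_stage3 {w : Fin 2 × Fin m → Fin 2 × Fin m → ℝ} {A c : ℝ} (hA : 0 ≤ A) (hc : 0 ≤ c)
    (hm : 2 ≤ m) {K : ℕ} (hK : 2 * m ≤ 2 ^ K)
    (hl : Lower w A (fun d => if d = (m : ZMod (2 * m)) then 0 else gg m K d)) :
    Lower (nxt (SS m) c w) (c * A) (fun _ => 1 / (2 * 2 ^ K)) := by
  set G : ZMod (2 * m) → ℝ := fun d => if d = (m : ZMod (2 * m)) then 0 else gg m K d with hG
  have hG0 : ∀ x, 0 ≤ G x := by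
    intro x
    simp only [hG]
    split_ifs
    · exact le_rfl
    · exact gg_nonneg _ _
  have hG1 : ∀ x, x ≠ (m : ZMod (2 * m)) → 1 / 2 ^ K ≤ G x := by
    intro x hx
    simp only [hG, if_neg hx]
    exact gg_lower (by omega) hK x
  have hpos : (0 : ℝ) < 2 ^ K := by positivity
  have e : (1 : ℝ) / (2 * 2 ^ K) = (1 / 2 ^ K) / 2 := by
    field_simp
  refine lower_step hA hc hl ?_ ?_ ?_
  · intro d _ _
    show (1 : ℝ) / (2 * 2 ^ K) ≤ (G (2 * d - 1) + 2 * G (2 * d) + G (2 * d + 1)) / 4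
    rw [e]
    by_cases h2d : 2 * d = (m : ZMod (2 * m))
    · have h1 : 2 * d - 1 ≠ (m : ZMod (2 * m)) := by
        intro e'
        rw [← h2d] at e'
        apply one_ne_zero' (m := m) (by omega)
        linear_combination -e'
      have h2 : 2 * d + 1 ≠ (m : ZMod (2 * m)) := by
        intro e'
        rw [← h2d] at e'
        apply one_ne_zero' (m := m) (by omega)
        linear_combination e'
      have h3 := hG1 _ h1
      have h4 := hG1 _ h2
      have h5 := hG0 (2 * d)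
      linarith
    · have h3 := hG1 _ h2d
      have h4 := hG0 (2 * d - 1)
      have h5 := hG0 (2 * d + 1)
      linarith
  · show (1 : ℝ) / (2 * 2 ^ K) ≤ G 1
    have h3 := hG1 _ (one_ne_m hm)
    rw [e]
    have : (0 : ℝ) < 1 / 2 ^ K := by positivity
    linarith
  · show (1 : ℝ) / (2 * 2 ^ K) ≤ G (-1)
    have h3 := hG1 _ (neg_one_ne_m hm)
    rw [e]
    have : (0 : ℝ) < 1 / 2 ^ K := by positivity
    linarith

/-- **The lower bound of the weights.** -/
theorem lower_final {c s : ℝ} (hc : 0 ≤ c) (hs : 0 ≤ s) (hm : 2 ≤ m) (p q : Fin 2 × Fin m)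
    (h : p ≠ q) :
    c ^ (Nat.clog 2 (2 * m) + 1) * s * (1 / (2 * 2 ^ Nat.clog 2 (2 * m)))
      ≤ wk (SS m) c s (Nat.clog 2 (2 * m) + 1) p q := by
  set K := Nat.clog 2 (2 * m) with hK
  have h1 : 2 * m ≤ 2 ^ K := Nat.le_pow_clog (by norm_num) _
  have h2 : 2 ^ K.pred < 2 * m := Nat.pow_pred_clog_lt_self (by norm_num) (by omega)
  have hK1 : 1 ≤ K := by
    by_contra hK0
    have : K = 0 := by omega
    rw [this] at h1
    simp at h1
    omega
  obtain ⟨k, hk⟩ : ∃ k, K = k + 1 := ⟨K - 1, by omega⟩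
  rw [hk] at h1 h2 ⊢
  have h3 : ∀ j < k, 2 ^ j ≤ m := by
    intro j hj
    simp only [Nat.pred_succ] at h2
    have h4 : 2 ^ j * 2 ≤ 2 ^ k := by
      rw [← pow_succ]
      exact Nat.pow_le_pow_right (by norm_num) hj
    omega
  have h5 := lower_stage2 hc hs k h3
  have h6 := lower_stage3 (by positivity) hc hm h1 h5
  have h7 := h6 p q h
  simp only at h7
  have e : c ^ (k + 1 + 1) * s = c * (c ^ (k + 1) * s) := by ring
  rw [e]
  exact h7

end Vale.Agent.Lib.P162G
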